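import Vale.Agent.H20.OTDefs2

/-!
# P074 helper lemma : optimality of a Monge minimizer against rearranged maps
-/

namespace Vale.Agent.H38

open MeasureTheory

theorem inner_swap_le_of_isOptimalMap {d : ℕ}
    (ρ μ : MeasureTheory.Measure (EuclideanSpace ℝ (Fin d))) [MeasureTheory.IsFiniteMeasure ρ]
    (T : EuclideanSpace ℝ (Fin d) → EuclideanSpace ℝ (Fin d))
    (hT : Vale.Agent.H20.IsOptimalMap ρ μ T) (R : ℝ) (hx : ∀ᵐ x ∂ρ, ‖x‖ ≤ R)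
    (hTb : ∀ᵐ x ∂ρ, ‖T x‖ ≤ R)
    (τ : EuclideanSpace ℝ (Fin d) → EuclideanSpace ℝ (Fin d)) (hτ : Measurable τ)
    (hτρ : ρ.map τ = ρ) :
    ∫ x, inner ℝ x (T (τ x)) ∂ρ ≤ ∫ x, inner ℝ x (T x) ∂ρ := by
  obtain ⟨hTm, hTμ, hopt⟩ := hT
  have hT'm : Measurable (T ∘ τ) := hTm.comp hτ
  have hT'μ : ρ.map (T ∘ τ) = μ := by
    rw [← Measure.map_map hTm hτ, hτρ, hTμ]
  have hcost := hopt (T ∘ τ) hT'm hT'μ
  -- a.e. bound for `T ∘ τ`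
  have hTτb : ∀ᵐ x ∂ρ, ‖T (τ x)‖ ≤ R := by
    have hs : MeasurableSet {y | ‖T y‖ ≤ R} := measurableSet_le hTm.norm measurable_const
    have h1 : ∀ᵐ y ∂(ρ.map τ), ‖T y‖ ≤ R := by rw [hτρ]; exact hTb
    exact (ae_map_iff hτ.aemeasurable hs).mp h1
  -- integrability of all pieces
  have hR0 : ∀ᵐ x ∂ρ, (0 : ℝ) ≤ R := hx.mono fun x h => le_trans (norm_nonneg _) h
  have i_xx : Integrable (fun x : EuclideanSpace ℝ (Fin d) => ‖x‖ ^ 2) ρ := by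
    refine Integrable.of_bound (measurable_norm.pow_const 2).aestronglyMeasurable (R ^ 2) ?_
    filter_upwards [hx] with x h
    rw [Real.norm_eq_abs, abs_of_nonneg (by positivity)]
    exact pow_le_pow_left₀ (norm_nonneg _) h 2
  have i_TT : Integrable (fun x : EuclideanSpace ℝ (Fin d) => ‖T x‖ ^ 2) ρ := by
    refine Integrable.of_bound (hTm.norm.pow_const 2).aestronglyMeasurable (R ^ 2) ?_
    filter_upwards [hTb] with x h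
    rw [Real.norm_eq_abs, abs_of_nonneg (by positivity)]
    exact pow_le_pow_left₀ (norm_nonneg _) h 2
  have i_TτTτ : Integrable (fun x : EuclideanSpace ℝ (Fin d) => ‖T (τ x)‖ ^ 2) ρ := by
    refine Integrable.of_bound (hT'm.norm.pow_const 2).aestronglyMeasurable (R ^ 2) ?_
    filter_upwards [hTτb] with x h
    rw [Real.norm_eq_abs, abs_of_nonneg (by positivity)]
    exact pow_le_pow_left₀ (norm_nonneg _) h 2
  have i_xT : Integrable (fun x : EuclideanSpace ℝ (Fin d) => inner ℝ x (T x)) ρ := by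
    refine Integrable.of_bound (measurable_id.inner hTm).aestronglyMeasurable (R * R) ?_
    filter_upwards [hx, hTb] with x h1 h2
    exact (norm_inner_le_norm _ _).trans
      (mul_le_mul h1 h2 (norm_nonneg _) (le_trans (norm_nonneg _) h1))
  have i_xTτ : Integrable (fun x : EuclideanSpace ℝ (Fin d) => inner ℝ x (T (τ x))) ρ := by
    refine Integrable.of_bound (measurable_id.inner hT'm).aestronglyMeasurable (R * R) ?_
    filter_upwards [hx, hTτb] with x h1 h2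
    exact (norm_inner_le_norm _ _).trans
      (mul_le_mul h1 h2 (norm_nonneg _) (le_trans (norm_nonneg _) h1))
  -- expansion of the costs
  have e1 : ∀ x : EuclideanSpace ℝ (Fin d),
      ‖x - T x‖ ^ 2 = ‖x‖ ^ 2 - 2 * inner ℝ x (T x) + ‖T x‖ ^ 2 := fun x => norm_sub_sq_real _ _
  have e2 : ∀ x : EuclideanSpace ℝ (Fin d),
      ‖x - (T ∘ τ) x‖ ^ 2 = ‖x‖ ^ 2 - 2 * inner ℝ x (T (τ x)) + ‖T (τ x)‖ ^ 2 :=
    fun x => norm_sub_sq_real _ _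
  have i1 : Integrable (fun x : EuclideanSpace ℝ (Fin d) => ‖x - T x‖ ^ 2) ρ := by
    simp only [e1]
    exact (i_xx.sub (i_xT.const_mul 2)).add i_TT
  have i2 : Integrable (fun x : EuclideanSpace ℝ (Fin d) => ‖x - (T ∘ τ) x‖ ^ 2) ρ := by
    simp only [e2]
    exact (i_xx.sub (i_xTτ.const_mul 2)).add i_TτTτ
  rw [← ofReal_integral_eq_lintegral_ofReal i1 (ae_of_all _ fun x => by positivity),
    ← ofReal_integral_eq_lintegral_ofReal i2 (ae_of_all _ fun x => by positivity),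
    ENNReal.ofReal_le_ofReal_iff (integral_nonneg fun x => by positivity)] at hcost
  have s1 : ∫ x, ‖x - T x‖ ^ 2 ∂ρ
      = ∫ x, ‖x‖ ^ 2 ∂ρ - 2 * ∫ x, inner ℝ x (T x) ∂ρ + ∫ x, ‖T x‖ ^ 2 ∂ρ := by
    simp only [e1]
    have hf : Integrable (fun x : EuclideanSpace ℝ (Fin d) => ‖x‖ ^ 2 - 2 * inner ℝ x (T x)) ρ :=
      i_xx.sub (i_xT.const_mul 2)
    have a1 : ∫ x, ‖x‖ ^ 2 - 2 * inner ℝ x (T x) + ‖T x‖ ^ 2 ∂ρ
        = ∫ x, ‖x‖ ^ 2 - 2 * inner ℝ x (T x) ∂ρ + ∫ x, ‖T x‖ ^ 2 ∂ρ := integral_add hf i_TT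
    have a2 : ∫ x, ‖x‖ ^ 2 - 2 * inner ℝ x (T x) ∂ρ
        = ∫ x, ‖x‖ ^ 2 ∂ρ - ∫ x, 2 * inner ℝ x (T x) ∂ρ := integral_sub i_xx (i_xT.const_mul 2)
    rw [a1, a2, integral_const_mul]
  have s2 : ∫ x, ‖x - (T ∘ τ) x‖ ^ 2 ∂ρ
      = ∫ x, ‖x‖ ^ 2 ∂ρ - 2 * ∫ x, inner ℝ x (T (τ x)) ∂ρ + ∫ x, ‖T (τ x)‖ ^ 2 ∂ρ := by
    simp only [e2]
    have hf : Integrable
        (fun x : EuclideanSpace ℝ (Fin d) => ‖x‖ ^ 2 - 2 * inner ℝ x (T (τ x))) ρ :=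
      i_xx.sub (i_xTτ.const_mul 2)
    have a1 : ∫ x, ‖x‖ ^ 2 - 2 * inner ℝ x (T (τ x)) + ‖T (τ x)‖ ^ 2 ∂ρ
        = ∫ x, ‖x‖ ^ 2 - 2 * inner ℝ x (T (τ x)) ∂ρ + ∫ x, ‖T (τ x)‖ ^ 2 ∂ρ :=
      integral_add hf i_TτTτ
    have a2 : ∫ x, ‖x‖ ^ 2 - 2 * inner ℝ x (T (τ x)) ∂ρ
        = ∫ x, ‖x‖ ^ 2 ∂ρ - ∫ x, 2 * inner ℝ x (T (τ x)) ∂ρ :=
      integral_sub i_xx (i_xTτ.const_mul 2)
    rw [a1, a2, integral_const_mul]
  have s3 : ∫ x, ‖T (τ x)‖ ^ 2 ∂ρ = ∫ x, ‖T x‖ ^ 2 ∂ρ := by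
    have h := integral_map (μ := ρ) hτ.aemeasurable
      (f := fun y : EuclideanSpace ℝ (Fin d) => ‖T y‖ ^ 2)
      (hTm.norm.pow_const 2).aestronglyMeasurable
    rw [hτρ] at h
    exact h.symm
  rw [s1, s2, s3] at hcost
  linarith

end Vale.Agent.H38
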