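import Vale.Agent.H20.OTStab

/-!
# A Gagliardo–Nirenberg type step for differences of convex potentials (problem P074)

If `T`, `S` are subgradient maps of `φ`, `ψ` on a convex body `K`, then the `L²` distance
of `T` and `S` is controlled by the `L²` distance of `φ - ψ` to a constant (power `1/3`).
No slicing and no differentiation is used.
-/

namespace Vale.Agent.H38

open MeasureTheory Set

variable {E : Type*} [NormedAddCommGroup E] [InnerProductSpace ℝ E]

/-- Pointwise second-difference estimate. -/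
theorem gn_pointwise {φ ψ : E → ℝ} {T S : E → E} {x v : E} {R : ℝ} (c : ℝ)
    (hT : ∀ z, φ x + inner ℝ (T x) (z - x) ≤ φ z)
    (hS : ∀ z, ψ x + inner ℝ (S x) (z - x) ≤ ψ z)
    (hψ : ∀ a b, |ψ a - ψ b| ≤ R * ‖a - b‖) :
    (inner ℝ (T x - S x) v) ^ 2 ≤
      4 * (φ (x + v) - ψ (x + v) - c) ^ 2 + 4 * (φ (x - v) - ψ (x - v) - c) ^ 2
        + 8 * (φ x - ψ x - c) ^ 2
        + 4 * (R * ‖v‖) * (ψ (x + v) + ψ (x - v) - 2 * ψ x) := by
  have h1 := hT (x + v)
  have h2 := hT (x - v)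
  have h3 := hS (x + v)
  have h4 := hS (x - v)
  simp only [add_sub_cancel_left] at h1 h3
  have e : x - v - x = -v := by abel
  rw [e, inner_neg_right] at h2 h4
  have hab : inner ℝ (T x - S x) v = inner ℝ (T x) v - inner ℝ (S x) v := inner_sub_left _ _ _
  rw [hab]
  have hL1 := hψ (x + v) x
  have hL2 := hψ (x - v) x
  simp only [add_sub_cancel_left] at hL1
  rw [e, norm_neg] at hL2
  have hL1' := abs_le.1 hL1
  have hL2' := abs_le.1 hL2
  generalize inner ℝ (T x) v = a at *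
  generalize inner ℝ (S x) v = b at *
  generalize R * ‖v‖ = L at *
  generalize φ (x + v) = p1 at *
  generalize φ (x - v) = p2 at *
  generalize φ x = p0 at *
  generalize ψ (x + v) = q1 at *
  generalize ψ (x - v) = q2 at *
  generalize ψ x = q0 at *
  have hD0 : 0 ≤ q1 + q2 - 2 * q0 := by linarith
  have hD1 : q1 + q2 - 2 * q0 ≤ 2 * L := by linarith
  have u1 : a - b ≤ (p1 - q1 - c) - (p0 - q0 - c) + (q1 + q2 - 2 * q0) := by linarith
  have u2 : -(a - b) ≤ (p2 - q2 - c) - (p0 - q0 - c) + (q1 + q2 - 2 * q0) := by linarith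
  have hDD : (q1 + q2 - 2 * q0) ^ 2 ≤ 2 * L * (q1 + q2 - 2 * q0) := by nlinarith
  rcases le_total 0 (a - b) with hpos | hneg
  · have : (a - b) ^ 2 ≤ ((p1 - q1 - c) - (p0 - q0 - c) + (q1 + q2 - 2 * q0)) ^ 2 := by
      apply pow_le_pow_left₀ hpos u1
    nlinarith [sq_nonneg ((p1 - q1 - c) + (p0 - q0 - c)),
      sq_nonneg ((p1 - q1 - c) - (p0 - q0 - c) - (q1 + q2 - 2 * q0)),
      sq_nonneg (p2 - q2 - c), sq_nonneg (p0 - q0 - c)]
  · have : (a - b) ^ 2 ≤ ((p2 - q2 - c) - (p0 - q0 - c) + (q1 + q2 - 2 * q0)) ^ 2 := by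
      have h' : 0 ≤ -(a - b) := by linarith
      have := pow_le_pow_left₀ h' u2 2
      nlinarith
    nlinarith [sq_nonneg ((p2 - q2 - c) + (p0 - q0 - c)),
      sq_nonneg ((p2 - q2 - c) - (p0 - q0 - c) - (q1 + q2 - 2 * q0)),
      sq_nonneg (p1 - q1 - c), sq_nonneg (p0 - q0 - c)]


/-- The same estimate with `x + -v` in place of `x - v`. -/
theorem gn_pointwise' {φ ψ : E → ℝ} {T S : E → E} {x v : E} {R : ℝ} (c : ℝ)
    (hT : ∀ z, φ x + inner ℝ (T x) (z - x) ≤ φ z)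
    (hS : ∀ z, ψ x + inner ℝ (S x) (z - x) ≤ ψ z)
    (hψ : ∀ a b, |ψ a - ψ b| ≤ R * ‖a - b‖) :
    (inner ℝ (T x - S x) v) ^ 2 ≤
      4 * (φ (x + v) - ψ (x + v) - c) ^ 2 + 4 * (φ (x + -v) - ψ (x + -v) - c) ^ 2
        + 8 * (φ x - ψ x - c) ^ 2
        + 4 * (R * ‖v‖) * (ψ (x + v) + ψ (x + -v) - 2 * ψ x) := by
  rw [← sub_eq_add_neg]
  exact gn_pointwise c hT hS hψ

section integral

variable [MeasurableSpace E] [BorelSpace E]

theorem setIntegral_shift_eq {μ : Measure E} [μ.IsAddRightInvariant]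
    {A : Set E} (hA : MeasurableSet A) (v : E) (u : E → ℝ) :
    ∫ x in A, u (x + -v) ∂μ = ∫ y in (fun y => y + v) ⁻¹' A, u y ∂μ := by
  have hA' : MeasurableSet ((fun y => y + v) ⁻¹' A) := (measurable_add_const v) hA
  calc ∫ x in A, u (x + -v) ∂μ
      = ∫ x, A.indicator (fun x => u (x + -v)) x ∂μ := (integral_indicator hA).symm
    _ = ∫ y, A.indicator (fun x => u (x + -v)) (y + v) ∂μ :=
        (integral_add_right_eq_self _ v).symm
    _ = ∫ y, ((fun y => y + v) ⁻¹' A).indicator u y ∂μ := by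
        congr 1
        ext y
        by_cases hy : y + v ∈ A
        · rw [indicator_of_mem hy, indicator_of_mem (show y ∈ (fun y => y + v) ⁻¹' A from hy)]
          simp
        · rw [indicator_of_notMem hy,
            indicator_of_notMem (show y ∉ (fun y => y + v) ⁻¹' A from hy)]
    _ = ∫ y in (fun y => y + v) ⁻¹' A, u y ∂μ := integral_indicator hA'

end integral


section main

variable [MeasurableSpace E] [BorelSpace E] [FiniteDimensional ℝ E]

/-- Directional estimate: the second difference quotient argument. -/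
theorem gn_dir {μ : Measure E} [μ.IsAddHaarMeasure]
    {K : Set E} (hKc : IsCompact K) (hconv : Convex ℝ K) {x₀ : E} {r : ℝ} (hr : 0 < r)
    (hball : Metric.closedBall x₀ r ⊆ K)
    {φ ψ : E → ℝ} (hφc : Continuous φ) (hψc : Continuous ψ)
    {R : ℝ} (hR : 0 ≤ R) (hψL : ∀ a b, |ψ a - ψ b| ≤ R * ‖a - b‖)
    {T S : E → E} (hT : Measurable T) (hS : Measurable S)
    (hφ : ∀ᵐ x ∂μ.restrict K, ∀ z, φ x + inner ℝ (T x) (z - x) ≤ φ z)
    (hψ : ∀ᵐ x ∂μ.restrict K, ∀ z, ψ x + inner ℝ (S x) (z - x) ≤ ψ z)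
    (hTb : ∀ᵐ x ∂μ.restrict K, ‖T x‖ ≤ R) (hSb : ∀ᵐ x ∂μ.restrict K, ‖S x‖ ≤ R)
    (c : ℝ) (v : E) (hv : 2 * ‖v‖ ≤ r) :
    ∫ x in K, (inner ℝ (T x - S x) v) ^ 2 ∂μ
      ≤ 16 * ∫ x in K, (φ x - ψ x - c) ^ 2 ∂μ
        + 20 * (Module.finrank ℝ E : ℝ) * R ^ 2 * ‖v‖ ^ 2 * (‖v‖ / r) * μ.real K := by
  have hK : MeasurableSet K := hKc.measurableSet
  have hKfin : μ K ≠ ⊤ := hKc.measure_lt_top.ne
  set d : ℝ := (Module.finrank ℝ E : ℝ) with hd_def
  set h : ℝ := ‖v‖ with hh_def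
  have hh0 : 0 ≤ h := norm_nonneg v
  have hμK0 : 0 ≤ μ.real K := measureReal_nonneg
  set Kp : Set E := (fun x => x + v) ⁻¹' K with hKp_def
  set Km : Set E := (fun x => x + -v) ⁻¹' K with hKm_def
  have hKp : MeasurableSet Kp := (measurable_add_const v) hK
  have hKm : MeasurableSet Km := (measurable_add_const (-v)) hK
  set A : Set E := K ∩ (Kp ∩ Km) with hA_def
  have hA : MeasurableSet A := hK.inter (hKp.inter hKm)
  have hAK : A ⊆ K := inter_subset_left
  have hAfin : μ A ≠ ⊤ := measure_ne_top_of_subset hAK hKfin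
  set g : E → ℝ := fun x => (φ x - ψ x - c) ^ 2 with hg_def
  have hgc : Continuous g := ((hφc.sub hψc).sub continuous_const).pow 2
  have hg0 : ∀ x, 0 ≤ g x := fun x => sq_nonneg _
  set f : E → ℝ := fun x => (inner ℝ (T x - S x) v) ^ 2 with hf_def
  have hfm : Measurable f := ((hT.sub hS).inner measurable_const).pow_const 2
  -- bound of f
  have hfb : ∀ᵐ x ∂μ.restrict K, f x ≤ 4 * R ^ 2 * h ^ 2 := by
    filter_upwards [hTb, hSb] with x h1 h2
    have h3 : |inner ℝ (T x - S x) v| ≤ ‖T x - S x‖ * ‖v‖ := abs_real_inner_le_norm _ _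
    have h4 : ‖T x - S x‖ ≤ 2 * R := by
      calc ‖T x - S x‖ ≤ ‖T x‖ + ‖S x‖ := norm_sub_le _ _
        _ ≤ 2 * R := by linarith
    have h5 : |inner ℝ (T x - S x) v| ≤ 2 * R * h := by
      calc |inner ℝ (T x - S x) v| ≤ ‖T x - S x‖ * ‖v‖ := h3
        _ ≤ 2 * R * h := by
          apply mul_le_mul h4 le_rfl (norm_nonneg _) (by linarith)
    have h6 : (inner ℝ (T x - S x) v) ^ 2 ≤ (2 * R * h) ^ 2 := by
      rw [← sq_abs]
      exact pow_le_pow_left₀ (abs_nonneg _) h5 2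
    calc f x = (inner ℝ (T x - S x) v) ^ 2 := rfl
      _ ≤ (2 * R * h) ^ 2 := h6
      _ = 4 * R ^ 2 * h ^ 2 := by ring
  have hf0 : ∀ x, 0 ≤ f x := fun x => sq_nonneg _
  have hfK : IntegrableOn f K μ := by
    refine Measure.integrableOn_of_bounded hKfin hfm.aestronglyMeasurable (M := 4 * R ^ 2 * h ^ 2) ?_
    filter_upwards [hfb] with x hx
    rw [Real.norm_eq_abs, abs_of_nonneg (hf0 x)]
    exact hx
  -- measure of shifted differences
  have hshift1 : μ.real (K \ Kp) ≤ d * (h / r) * μ.real K :=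
    Vale.Agent.H20.measureReal_diff_shift_le hKc hconv hr hball (by linarith)
  have hshift2 : μ.real (K \ Km) ≤ d * (h / r) * μ.real K := by
    have := Vale.Agent.H20.measureReal_diff_shift_le (μ := μ) hKc hconv hr hball (v := -v)
      (by rw [norm_neg]; linarith)
    rwa [norm_neg] at this
  have hshift3 : μ.real (K \ (fun x => x + (v + v)) ⁻¹' K) ≤ d * (2 * h / r) * μ.real K := by
    have hn : ‖v + v‖ = 2 * h := by
      rw [← two_smul ℝ v, norm_smul]; simp [hh_def]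
    have := Vale.Agent.H20.measureReal_diff_shift_le (μ := μ) hKc hconv hr hball (v := v + v)
      (by rw [hn]; exact hv)
    rwa [hn] at this
  -- split K into A and K \ A
  have hsplit : ∫ x in K ∩ (Kp ∩ Km), f x ∂μ + ∫ x in K \ (Kp ∩ Km), f x ∂μ = ∫ x in K, f x ∂μ :=
    integral_inter_add_sdiff (hKp.inter hKm) hfK
  have hKA : μ.real (K \ (Kp ∩ Km)) ≤ 2 * d * (h / r) * μ.real K := by
    have e : K \ (Kp ∩ Km) = (K \ Kp) ∪ (K \ Km) := sdiff_inter
    rw [e]
    calc μ.real ((K \ Kp) ∪ (K \ Km)) ≤ μ.real (K \ Kp) + μ.real (K \ Km) :=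
          measureReal_union_le _ _
      _ ≤ 2 * d * (h / r) * μ.real K := by linarith
  have hout : ∫ x in K \ (Kp ∩ Km), f x ∂μ ≤ 4 * R ^ 2 * h ^ 2 * (2 * d * (h / r) * μ.real K) := by
    have hsub : K \ (Kp ∩ Km) ⊆ K := sdiff_subset
    have hfin : μ (K \ (Kp ∩ Km)) ≠ ⊤ := measure_ne_top_of_subset hsub hKfin
    have h1 : ∫ x in K \ (Kp ∩ Km), f x ∂μ ≤ ∫ x in K \ (Kp ∩ Km), (4 * R ^ 2 * h ^ 2 : ℝ) ∂μ := by
      apply setIntegral_mono_ae_restrict (hfK.mono_set hsub)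
      · exact integrableOn_const hfin
      · exact ae_restrict_of_ae_restrict_of_subset hsub hfb
    rw [setIntegral_const, smul_eq_mul] at h1
    have h2 : 0 ≤ 4 * R ^ 2 * h ^ 2 := by positivity
    calc ∫ x in K \ (Kp ∩ Km), f x ∂μ ≤ μ.real (K \ (Kp ∩ Km)) * (4 * R ^ 2 * h ^ 2) := h1
      _ ≤ 4 * R ^ 2 * h ^ 2 * (2 * d * (h / r) * μ.real K) := by
        rw [mul_comm]
        exact mul_le_mul_of_nonneg_left hKA h2
  -- the estimate on A
  set D2 : E → ℝ := fun x => ψ (x + v) + ψ (x + -v) - 2 * ψ x with hD2_def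
  set u : E → ℝ := fun x => ψ (x + v) - ψ x with hu_def
  have huc : Continuous u := (hψc.comp (continuous_add_const v)).sub hψc
  have hub : ∀ x, |u x| ≤ R * h := by
    intro x
    have := hψL (x + v) x
    simpa [hu_def] using this
  have hgp : Continuous (fun x => g (x + v)) := hgc.comp (continuous_add_const v)
  have hgm : Continuous (fun x => g (x + -v)) := hgc.comp (continuous_add_const (-v))
  have hD2c : Continuous D2 :=
    ((hψc.comp (continuous_add_const v)).add (hψc.comp (continuous_add_const (-v)))).sub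
      (continuous_const.mul hψc)
  have iA : ∀ {F : E → ℝ}, Continuous F → IntegrableOn F A μ := fun hF =>
    (hF.continuousOn.integrableOn_compact hKc).mono_set hAK
  have hpt : ∀ᵐ x ∂μ.restrict A,
      f x ≤ 4 * g (x + v) + 4 * g (x + -v) + 8 * g x + 4 * (R * h) * D2 x := by
    have h1 := ae_restrict_of_ae_restrict_of_subset hAK hφ
    have h2 := ae_restrict_of_ae_restrict_of_subset hAK hψ
    filter_upwards [h1, h2] with x hx1 hx2
    exact gn_pointwise' c hx1 hx2 hψL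
  have hAint : ∫ x in A, f x ∂μ
      ≤ 4 * ∫ x in A, g (x + v) ∂μ + 4 * ∫ x in A, g (x + -v) ∂μ + 8 * ∫ x in A, g x ∂μ
        + 4 * (R * h) * ∫ x in A, D2 x ∂μ := by
    have hI : IntegrableOn
        (fun x => 4 * g (x + v) + 4 * g (x + -v) + 8 * g x + 4 * (R * h) * D2 x) A μ :=
      ((((iA hgp).const_mul 4).add ((iA hgm).const_mul 4)).add ((iA hgc).const_mul 8)).add
        ((iA hD2c).const_mul _)
    have h1 := setIntegral_mono_ae_restrict (hfK.mono_set hAK) hI hpt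
    have e : ∫ x in A, (4 * g (x + v) + 4 * g (x + -v) + 8 * g x + 4 * (R * h) * D2 x) ∂μ
        = 4 * ∫ x in A, g (x + v) ∂μ + 4 * ∫ x in A, g (x + -v) ∂μ + 8 * ∫ x in A, g x ∂μ
          + 4 * (R * h) * ∫ x in A, D2 x ∂μ := by
      rw [integral_add, integral_add, integral_add, integral_const_mul, integral_const_mul,
        integral_const_mul, integral_const_mul]
      · exact (iA hgp).const_mul 4
      · exact (iA hgm).const_mul 4
      · exact ((iA hgp).const_mul 4).add ((iA hgm).const_mul 4)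
      · exact (iA hgc).const_mul 8
      · exact (((iA hgp).const_mul 4).add ((iA hgm).const_mul 4)).add ((iA hgc).const_mul 8)
      · exact (iA hD2c).const_mul _
    rw [e] at h1
    exact h1
  have hgK : IntegrableOn g K μ := hgc.continuousOn.integrableOn_compact hKc
  have hg0' : 0 ≤ᵐ[μ.restrict K] g := Filter.Eventually.of_forall hg0
  -- shifted integrals of g
  have hG1 : ∫ x in A, g (x + v) ∂μ ≤ ∫ x in K, g x ∂μ := by
    have h1 : ∫ x in A, g (x + v) ∂μ ≤ ∫ x in K ∩ Kp, g (x + v) ∂μ := by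
      apply setIntegral_mono_set
      · exact (hgp.continuousOn.integrableOn_compact hKc).mono_set inter_subset_left
      · exact Filter.Eventually.of_forall (fun x => hg0 _)
      · exact Filter.Eventually.of_forall
          (fun x hx => ⟨hx.1, hx.2.1⟩)
    exact h1.trans (Vale.Agent.H20.setIntegral_shift_le hK v hgK hg0')
  have hG2 : ∫ x in A, g (x + -v) ∂μ ≤ ∫ x in K, g x ∂μ := by
    have h1 : ∫ x in A, g (x + -v) ∂μ ≤ ∫ x in K ∩ Km, g (x + -v) ∂μ := by
      apply setIntegral_mono_set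
      · exact (hgm.continuousOn.integrableOn_compact hKc).mono_set inter_subset_left
      · exact Filter.Eventually.of_forall (fun x => hg0 _)
      · exact Filter.Eventually.of_forall
          (fun x hx => ⟨hx.1, hx.2.2⟩)
    exact h1.trans (Vale.Agent.H20.setIntegral_shift_le hK (-v) hgK hg0')
  have hG3 : ∫ x in A, g x ∂μ ≤ ∫ x in K, g x ∂μ :=
    setIntegral_mono_set hgK hg0' (Filter.Eventually.of_forall hAK)
  -- the second difference term
  set A' : Set E := (fun y => y + v) ⁻¹' A with hA'_def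
  have hA' : MeasurableSet A' := (measurable_add_const v) hA
  have hA'fin : μ A' ≠ ⊤ := by
    rw [hA'_def, measure_preimage_add_right]
    exact hAfin
  have iu : ∀ {B : Set E}, μ B ≠ ⊤ → IntegrableOn u B μ := by
    intro B hB
    refine Measure.integrableOn_of_bounded hB huc.aestronglyMeasurable (M := R * h) ?_
    exact Filter.Eventually.of_forall (fun x => by rw [Real.norm_eq_abs]; exact hub x)
  have hD2int : ∫ x in A, D2 x ∂μ = ∫ x in A, u x ∂μ - ∫ x in A', u x ∂μ := by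
    have e1 : ∀ x, D2 x = u x - u (x + -v) := by
      intro x
      simp only [hD2_def, hu_def, neg_add_cancel_right]
      ring
    have e2 : ∫ x in A, D2 x ∂μ = ∫ x in A, (u x - u (x + -v)) ∂μ := by
      congr 1
      ext x
      exact e1 x
    have hum : IntegrableOn (fun x => u (x + -v)) A μ := by
      refine Measure.integrableOn_of_bounded hAfin
        (huc.comp (continuous_add_const (-v))).aestronglyMeasurable (M := R * h) ?_
      exact Filter.Eventually.of_forall (fun x => by rw [Real.norm_eq_abs]; exact hub _)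
    rw [e2, integral_sub (iu hAfin) hum, setIntegral_shift_eq hA v u]
  have hsA : ∫ x in A ∩ A', u x ∂μ + ∫ x in A \ A', u x ∂μ = ∫ x in A, u x ∂μ :=
    integral_inter_add_sdiff hA' (iu hAfin)
  have hsA' : ∫ x in A' ∩ A, u x ∂μ + ∫ x in A' \ A, u x ∂μ = ∫ x in A', u x ∂μ :=
    integral_inter_add_sdiff hA (iu hA'fin)
  have hbd : ∀ {B : Set E}, MeasurableSet B → μ B ≠ ⊤ →
      |∫ x in B, u x ∂μ| ≤ R * h * μ.real B := by
    intro B hBm hB
    have h1 : ‖∫ x in B, u x ∂μ‖ ≤ R * h * μ.real B := by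
      apply norm_setIntegral_le_of_norm_le_const (lt_top_iff_ne_top.2 hB)
      intro x _
      rw [Real.norm_eq_abs]; exact hub x
    rwa [Real.norm_eq_abs] at h1
  have hm1 : μ.real (A \ A') ≤ d * (2 * h / r) * μ.real K := by
    refine le_trans (measureReal_mono ?_ (measure_ne_top_of_subset sdiff_subset hKfin)) hshift3
    rintro x ⟨hxA, hxA'⟩
    refine ⟨hxA.1, fun hx2 => hxA' ?_⟩
    show x + v ∈ A
    refine ⟨hxA.2.1, ?_, ?_⟩
    · show x + v + v ∈ K
      rw [add_assoc]; exact hx2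
    · show x + v + -v ∈ K
      rw [add_neg_cancel_right]; exact hxA.1
  have hm2 : μ.real (A' \ A) ≤ d * (h / r) * μ.real K := by
    refine le_trans (measureReal_mono ?_ (measure_ne_top_of_subset sdiff_subset hKfin)) hshift2
    rintro x ⟨hxA', hxA⟩
    have hx1 : x + v ∈ A := hxA'
    have hxK : x ∈ K := by
      have := hx1.2.2
      have e : x + v + -v = x := add_neg_cancel_right x v
      change x + v + -v ∈ K at this
      rwa [e] at this
    refine ⟨hxK, fun hx2 => hxA ⟨hxK, hx1.1, hx2⟩⟩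
  have hD2le : ∫ x in A, D2 x ∂μ ≤ R * h * (3 * d * (h / r) * μ.real K) := by
    have e : A' ∩ A = A ∩ A' := inter_comm _ _
    rw [e] at hsA'
    have h1 := hbd (hA.diff hA') (measure_ne_top_of_subset sdiff_subset hAfin)
    have h2 := hbd (hA'.diff hA) (measure_ne_top_of_subset sdiff_subset hA'fin)
    have h1' := (abs_le.1 h1).2
    have h2' := (abs_le.1 h2).1
    have hRh : 0 ≤ R * h := mul_nonneg hR hh0
    have k1 : R * h * μ.real (A \ A') ≤ R * h * (d * (2 * h / r) * μ.real K) :=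
      mul_le_mul_of_nonneg_left hm1 hRh
    have k2 : R * h * μ.real (A' \ A) ≤ R * h * (d * (h / r) * μ.real K) :=
      mul_le_mul_of_nonneg_left hm2 hRh
    rw [hD2int]
    have e3 : d * (2 * h / r) * μ.real K = 2 * (d * (h / r) * μ.real K) := by ring
    rw [e3] at k1
    linarith
  -- assemble
  have hRh : 0 ≤ R * h := mul_nonneg hR hh0
  have hfin1 : 4 * (R * h) * ∫ x in A, D2 x ∂μ ≤ 4 * (R * h) * (R * h * (3 * d * (h / r) * μ.real K)) :=
    mul_le_mul_of_nonneg_left hD2le (by positivity)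
  rw [← hsplit]
  have hAeq : ∫ x in K ∩ (Kp ∩ Km), f x ∂μ = ∫ x in A, f x ∂μ := rfl
  rw [hAeq]
  have hgoal : 16 * ∫ x in K, g x ∂μ + 20 * d * R ^ 2 * h ^ 2 * (h / r) * μ.real K
      = 4 * (∫ x in K, g x ∂μ) + 4 * (∫ x in K, g x ∂μ) + 8 * (∫ x in K, g x ∂μ)
        + 4 * (R * h) * (R * h * (3 * d * (h / r) * μ.real K))
        + 4 * R ^ 2 * h ^ 2 * (2 * d * (h / r) * μ.real K) := by ring
  rw [hgoal]
  linarith

theorem norm_sub_sq_le_ae {μ : Measure E} {K : Set E} {R : ℝ} {T S : E → E}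
    (hTb : ∀ᵐ x ∂μ.restrict K, ‖T x‖ ≤ R) (hSb : ∀ᵐ x ∂μ.restrict K, ‖S x‖ ≤ R) :
    ∀ᵐ x ∂μ.restrict K, ‖T x - S x‖ ^ 2 ≤ 4 * R ^ 2 := by
  filter_upwards [hTb, hSb] with x h1 h2
  have h4 : ‖T x - S x‖ ≤ 2 * R := by
    calc ‖T x - S x‖ ≤ ‖T x‖ + ‖S x‖ := norm_sub_le _ _
      _ ≤ 2 * R := by linarith
  calc ‖T x - S x‖ ^ 2 ≤ (2 * R) ^ 2 := pow_le_pow_left₀ (norm_nonneg _) h4 2
    _ = 4 * R ^ 2 := by ring

theorem integrableOn_norm_sub_sq {μ : Measure E} {K : Set E} (hKfin : μ K ≠ ⊤) {R : ℝ}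
    {T S : E → E} (hT : Measurable T) (hS : Measurable S)
    (hTb : ∀ᵐ x ∂μ.restrict K, ‖T x‖ ≤ R) (hSb : ∀ᵐ x ∂μ.restrict K, ‖S x‖ ≤ R) :
    IntegrableOn (fun x => ‖T x - S x‖ ^ 2) K μ := by
  refine Measure.integrableOn_of_bounded hKfin
    ((hT.sub hS).norm.pow_const 2).aestronglyMeasurable (M := 4 * R ^ 2) ?_
  filter_upwards [norm_sub_sq_le_ae hTb hSb] with x hx
  rw [Real.norm_eq_abs, abs_of_nonneg (sq_nonneg _)]
  exact hx

theorem integrableOn_inner_sq {μ : Measure E} {K : Set E} (hKfin : μ K ≠ ⊤) {R : ℝ}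
    {T S : E → E} (hT : Measurable T) (hS : Measurable S)
    (hTb : ∀ᵐ x ∂μ.restrict K, ‖T x‖ ≤ R) (hSb : ∀ᵐ x ∂μ.restrict K, ‖S x‖ ≤ R) (v : E) :
    IntegrableOn (fun x => (inner ℝ (T x - S x) v) ^ 2) K μ := by
  refine Measure.integrableOn_of_bounded hKfin
    (((hT.sub hS).inner measurable_const).pow_const 2).aestronglyMeasurable
    (M := 4 * R ^ 2 * ‖v‖ ^ 2) ?_
  filter_upwards [norm_sub_sq_le_ae hTb hSb] with x hx
  rw [Real.norm_eq_abs, abs_of_nonneg (sq_nonneg _)]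
  have h3 : |inner ℝ (T x - S x) v| ≤ ‖T x - S x‖ * ‖v‖ := abs_real_inner_le_norm _ _
  calc (inner ℝ (T x - S x) v) ^ 2 = |inner ℝ (T x - S x) v| ^ 2 := (sq_abs _).symm
    _ ≤ (‖T x - S x‖ * ‖v‖) ^ 2 := pow_le_pow_left₀ (abs_nonneg _) h3 2
    _ = ‖T x - S x‖ ^ 2 * ‖v‖ ^ 2 := by ring
    _ ≤ 4 * R ^ 2 * ‖v‖ ^ 2 := mul_le_mul_of_nonneg_right hx (sq_nonneg _)

/-- **Gagliardo–Nirenberg step.** For subgradient maps `T`, `S` of `φ`, `ψ` on a convex body
`K ⊇ closedBall x₀ r`, with values in the ball of radius `R`, and every step `0 < h ≤ r / 2`: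
`∫_K |T - S|² ≤ 16 d h⁻² ∫_K (φ - ψ - c)² + 20 d² R² (h / r) |K|`. -/
theorem gn_step {μ : Measure E} [μ.IsAddHaarMeasure]
    {K : Set E} (hKc : IsCompact K) (hconv : Convex ℝ K) {x₀ : E} {r : ℝ} (hr : 0 < r)
    (hball : Metric.closedBall x₀ r ⊆ K)
    {φ ψ : E → ℝ} (hφc : Continuous φ) (hψc : Continuous ψ)
    {R : ℝ} (hR : 0 ≤ R) (hψL : ∀ a b, |ψ a - ψ b| ≤ R * ‖a - b‖)
    {T S : E → E} (hT : Measurable T) (hS : Measurable S)
    (hφ : ∀ᵐ x ∂μ.restrict K, ∀ z, φ x + inner ℝ (T x) (z - x) ≤ φ z)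
    (hψ : ∀ᵐ x ∂μ.restrict K, ∀ z, ψ x + inner ℝ (S x) (z - x) ≤ ψ z)
    (hTb : ∀ᵐ x ∂μ.restrict K, ‖T x‖ ≤ R) (hSb : ∀ᵐ x ∂μ.restrict K, ‖S x‖ ≤ R)
    (c : ℝ) {h : ℝ} (hh : 0 < h) (hhr : 2 * h ≤ r) :
    ∫ x in K, ‖T x - S x‖ ^ 2 ∂μ
      ≤ 16 * (Module.finrank ℝ E : ℝ) / h ^ 2 * ∫ x in K, (φ x - ψ x - c) ^ 2 ∂μ
        + 20 * (Module.finrank ℝ E : ℝ) ^ 2 * R ^ 2 * (h / r) * μ.real K := by
  have hKfin : μ K ≠ ⊤ := hKc.measure_lt_top.ne
  set d : ℝ := (Module.finrank ℝ E : ℝ) with hd_def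
  set G : ℝ := ∫ x in K, (φ x - ψ x - c) ^ 2 ∂μ with hG_def
  set b := stdOrthonormalBasis ℝ E with hb_def
  have key : ∀ i, ∫ x in K, (inner ℝ (T x - S x) (h • b i)) ^ 2 ∂μ
      ≤ 16 * G + 20 * d * R ^ 2 * h ^ 2 * (h / r) * μ.real K := by
    intro i
    have hn : ‖h • b i‖ = h := by
      rw [norm_smul, b.norm_eq_one, mul_one, Real.norm_eq_abs, abs_of_pos hh]
    have := gn_dir (μ := μ) hKc hconv hr hball hφc hψc hR hψL hT hS hφ hψ hTb hSb c (h • b i)
      (by rw [hn]; exact hhr)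
    rwa [hn] at this
  have hsum : h ^ 2 * ∫ x in K, ‖T x - S x‖ ^ 2 ∂μ
      = ∑ i, ∫ x in K, (inner ℝ (T x - S x) (h • b i)) ^ 2 ∂μ := by
    rw [← integral_finsetSum _ (fun i _ => integrableOn_inner_sq hKfin hT hS hTb hSb (h • b i)),
      ← integral_const_mul]
    congr 1
    ext x
    simp only [inner_smul_right, mul_pow]
    rw [← Finset.mul_sum, b.sum_sq_inner_left]
  have hle : h ^ 2 * ∫ x in K, ‖T x - S x‖ ^ 2 ∂μ
      ≤ d * (16 * G + 20 * d * R ^ 2 * h ^ 2 * (h / r) * μ.real K) := by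
    rw [hsum]
    calc ∑ i, ∫ x in K, (inner ℝ (T x - S x) (h • b i)) ^ 2 ∂μ
        ≤ ∑ _i : Fin (Module.finrank ℝ E), (16 * G + 20 * d * R ^ 2 * h ^ 2 * (h / r) * μ.real K) :=
          Finset.sum_le_sum (fun i _ => key i)
      _ = d * (16 * G + 20 * d * R ^ 2 * h ^ 2 * (h / r) * μ.real K) := by
          rw [Finset.sum_const, Finset.card_univ, Fintype.card_fin, nsmul_eq_mul]
  have hh2 : 0 < h ^ 2 := by positivity
  have e : 16 * d / h ^ 2 * G + 20 * d ^ 2 * R ^ 2 * (h / r) * μ.real K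
      = (d * (16 * G + 20 * d * R ^ 2 * h ^ 2 * (h / r) * μ.real K)) / h ^ 2 := by
    field_simp
  rw [e, le_div_iff₀ hh2, mul_comm]
  exact hle

/-- **Gagliardo–Nirenberg step, power form.** `∫_K |T - S|² ≤ C (∫_K (φ - ψ - c)²)^(1/3)`
with the explicit constant
`C = max (16 d + 20 d² R² |K| / r) (8 R² |K| / r)`. -/
theorem gn_third {μ : Measure E} [μ.IsAddHaarMeasure]
    {K : Set E} (hKc : IsCompact K) (hconv : Convex ℝ K) {x₀ : E} {r : ℝ} (hr : 0 < r)
    (hball : Metric.closedBall x₀ r ⊆ K)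
    {φ ψ : E → ℝ} (hφc : Continuous φ) (hψc : Continuous ψ)
    {R : ℝ} (hR : 0 ≤ R) (hψL : ∀ a b, |ψ a - ψ b| ≤ R * ‖a - b‖)
    {T S : E → E} (hT : Measurable T) (hS : Measurable S)
    (hφ : ∀ᵐ x ∂μ.restrict K, ∀ z, φ x + inner ℝ (T x) (z - x) ≤ φ z)
    (hψ : ∀ᵐ x ∂μ.restrict K, ∀ z, ψ x + inner ℝ (S x) (z - x) ≤ ψ z)
    (hTb : ∀ᵐ x ∂μ.restrict K, ‖T x‖ ≤ R) (hSb : ∀ᵐ x ∂μ.restrict K, ‖S x‖ ≤ R)
    (c : ℝ) :
    ∫ x in K, ‖T x - S x‖ ^ 2 ∂μ
      ≤ max (16 * (Module.finrank ℝ E : ℝ)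
              + 20 * (Module.finrank ℝ E : ℝ) ^ 2 * R ^ 2 * μ.real K / r)
            (8 * R ^ 2 * μ.real K / r)
        * (∫ x in K, (φ x - ψ x - c) ^ 2 ∂μ) ^ ((1 : ℝ) / 3) := by
  have hK : MeasurableSet K := hKc.measurableSet
  have hKfin : μ K ≠ ⊤ := hKc.measure_lt_top.ne
  have hμK0 : 0 ≤ μ.real K := measureReal_nonneg
  set d : ℝ := (Module.finrank ℝ E : ℝ) with hd_def
  have hd0 : 0 ≤ d := Nat.cast_nonneg _
  set V : ℝ := ∫ x in K, (φ x - ψ x - c) ^ 2 ∂μ with hV_def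
  have hV0 : 0 ≤ V := setIntegral_nonneg hK (fun x _ => sq_nonneg _)
  set I : ℝ := ∫ x in K, ‖T x - S x‖ ^ 2 ∂μ with hI_def
  have htriv : I ≤ 4 * R ^ 2 * μ.real K := by
    have h1 : I ≤ ∫ x in K, (4 * R ^ 2 : ℝ) ∂μ :=
      setIntegral_mono_ae_restrict (integrableOn_norm_sub_sq hKfin hT hS hTb hSb)
        (integrableOn_const hKfin) (norm_sub_sq_le_ae hTb hSb)
    rw [setIntegral_const, smul_eq_mul] at h1
    linarith
  set t : ℝ := V ^ ((1 : ℝ) / 3) with ht_def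
  have ht0 : 0 ≤ t := Real.rpow_nonneg hV0 _
  have ht3 : t ^ 3 = V := by
    rw [ht_def, ← Real.rpow_natCast, ← Real.rpow_mul hV0]
    norm_num
  set C1 : ℝ := 16 * d + 20 * d ^ 2 * R ^ 2 * μ.real K / r with hC1_def
  set C2 : ℝ := 8 * R ^ 2 * μ.real K / r with hC2_def
  rcases le_or_gt (2 * t) r with hcase | hcase
  · rcases eq_or_lt_of_le ht0 with h0 | hpos
    · have hV : V = 0 := by rw [← ht3, ← h0]; ring
      have hI : I ≤ 0 := by
        apply le_of_forall_pos_le_add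
        intro ε hε
        set B : ℝ := 20 * d ^ 2 * R ^ 2 * μ.real K with hB_def
        have hB0 : 0 ≤ B := by positivity
        set h : ℝ := min (r / 2) (ε * r / (B + 1)) with hh_def
        have hh : 0 < h := lt_min (by positivity) (by positivity)
        have hh1 : h ≤ r / 2 := min_le_left _ _
        have hh2 : h ≤ ε * r / (B + 1) := min_le_right _ _
        have key := gn_step (μ := μ) hKc hconv hr hball hφc hψc hR hψL hT hS hφ hψ hTb hSb c hh
          (by linarith)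
        rw [← hV_def, hV, mul_zero, zero_add] at key
        have e : 20 * d ^ 2 * R ^ 2 * (h / r) * μ.real K = B * (h / r) := by
          rw [hB_def]; ring
        rw [e] at key
        have h3 : h / r ≤ ε / (B + 1) := by
          rw [div_le_iff₀ hr]
          calc h ≤ ε * r / (B + 1) := hh2
            _ = ε / (B + 1) * r := by ring
        have h4 : B * (h / r) ≤ ε := by
          calc B * (h / r) ≤ B * (ε / (B + 1)) := mul_le_mul_of_nonneg_left h3 hB0
            _ = ε * (B / (B + 1)) := by ring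
            _ ≤ ε * 1 := by
              apply mul_le_mul_of_nonneg_left _ hε.le
              rw [div_le_one (by linarith)]
              linarith
            _ = ε := mul_one ε
        linarith
      calc I ≤ 0 := hI
        _ = max C1 C2 * t := by rw [← h0]; ring
    · have key := gn_step (μ := μ) hKc hconv hr hball hφc hψc hR hψL hT hS hφ hψ hTb hSb c hpos
        hcase
      have e : 16 * d / t ^ 2 * V + 20 * d ^ 2 * R ^ 2 * (t / r) * μ.real K = C1 * t := by
        rw [← ht3, hC1_def]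
        field_simp
      rw [← hV_def, e] at key
      calc I ≤ C1 * t := key
        _ ≤ max C1 C2 * t := mul_le_mul_of_nonneg_right (le_max_left _ _) ht0
  · have h1 : 4 * R ^ 2 * μ.real K ≤ C2 * t := by
      have h2 : 0 ≤ 8 * R ^ 2 * μ.real K / r := by positivity
      have h3 : C2 * (r / 2) ≤ C2 * t := mul_le_mul_of_nonneg_left (by linarith) h2
      have h4 : C2 * (r / 2) = 4 * R ^ 2 * μ.real K := by
        rw [hC2_def]; field_simp; ring
      linarith
    calc I ≤ 4 * R ^ 2 * μ.real K := htriv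
      _ ≤ C2 * t := h1
      _ ≤ max C1 C2 * t := mul_le_mul_of_nonneg_right (le_max_right _ _) ht0

end main



end Vale.Agent.H38
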