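import Mathlib

open MeasureTheory Real

namespace Vale.Agent.H38.P140

/-- Phase space: the torus `T^3 = R^3 / Z^3` in position, `R^3` in velocity. -/
abbrev Phase : Type := (Fin 3 → UnitAddCircle) × EuclideanSpace ℝ (Fin 3)

/-- The normalised Maxwellian `M(v) = (2 pi)^(-3/2) exp(-|v|^2/2)` as a function on phase space. -/
noncomputable def stdMaxwellian (z : Phase) : ℝ :=
  (2 * π) ^ (-(3 / 2 : ℝ)) * Real.exp (-‖z.2‖ ^ 2 / 2)

/-- The global Maxwellian with density `ρ`, bulk velocity `u` and temperature `θ`. -/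
noncomputable def maxwellian (ρ θ : ℝ) (u : EuclideanSpace ℝ (Fin 3)) (z : Phase) : ℝ :=
  ρ * (2 * π * θ) ^ (-(3 / 2 : ℝ)) * Real.exp (-‖z.2 - u‖ ^ 2 / (2 * θ))

/-- The relative entropy `H_M(F) = ∫ (F log (F / M) - F + M)` over phase space. -/
noncomputable def relEntropy (f : Phase → ℝ) : ℝ :=
  ∫ z, (f z * Real.log (f z / stdMaxwellian z) - f z + stdMaxwellian z)

/-- `ObeysGlobalLaws F F0`: the time-dependent phase-space density `F` starts at `F0` and, at every
time `t ≥ 0`, is nonnegative, has integrable mass, energy and entropy densities, has the same total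
mass and total momentum as `F0`, at most the energy of `F0`, and at most the relative entropy
`H_M` of `F0`. These are consequences of (i) and (iii) in the definition of a renormalized entropy
solution with datum `F0`. -/
def ObeysGlobalLaws (F : ℝ → Phase → ℝ) (F0 : Phase → ℝ) : Prop :=
  F 0 = F0 ∧ ∀ t : ℝ, 0 ≤ t →
    (∀ z, 0 ≤ F t z) ∧
    Integrable (F t) ∧
    Integrable (fun z : Phase => ‖z.2‖ ^ 2 * F t z) ∧
    Integrable (fun z : Phase => F t z * Real.log (F t z)) ∧
    (∫ z, F t z = ∫ z, F0 z) ∧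
    (∫ z : Phase, F t z • z.2 = ∫ z : Phase, F0 z • z.2) ∧
    (∫ z : Phase, ‖z.2‖ ^ 2 * F t z ≤ ∫ z : Phase, ‖z.2‖ ^ 2 * F0 z) ∧
    relEntropy (F t) ≤ relEntropy F0

end Vale.Agent.H38.P140
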