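import Vale.Agent.H38.P140Defs

open MeasureTheory Real

namespace Vale.Agent.H38.P140

theorem stdMaxwellian_pos (z : Phase) : 0 < stdMaxwellian z := by
  unfold stdMaxwellian
  positivity

theorem maxwellian_pos {ρ θ : ℝ} (u : EuclideanSpace ℝ (Fin 3)) (hρ : 0 < ρ) (hθ : 0 < θ)
    (z : Phase) : 0 < maxwellian ρ θ u z := by
  unfold maxwellian
  positivity

theorem integrable_stdMaxwellian : Integrable stdMaxwellian := by
  have h1 : Integrable (fun v : EuclideanSpace ℝ (Fin 3) =>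
      Complex.exp (-((1 / 2 : ℝ) : ℂ) * ‖v‖ ^ 2 + (0 : ℂ) * (inner ℝ (0 : EuclideanSpace ℝ (Fin 3)) v : ℝ))) :=
    GaussianFourier.integrable_cexp_neg_mul_sq_norm_add (by simp) 0 0
  have h2 : Integrable (fun v : EuclideanSpace ℝ (Fin 3) =>
      (2 * π) ^ (-(3 / 2 : ℝ)) * Real.exp (-‖v‖ ^ 2 / 2)) := by
    have h3 := h1.norm.const_mul ((2 * π) ^ (-(3 / 2 : ℝ)))
    refine h3.congr (Filter.Eventually.of_forall fun v => ?_)
    simp only [Complex.norm_exp]
    congr 2
    have h4 : ((‖v‖ : ℂ) ^ 2).re = ‖v‖ ^ 2 := by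
      rw [← Complex.ofReal_pow, Complex.ofReal_re]
    simp only [zero_mul, add_zero, neg_mul, Complex.neg_re, Complex.re_ofReal_mul, h4]
    ring
  exact h2.comp_snd (volume : Measure (Fin 3 → UnitAddCircle))


theorem gibbs_nonneg {a b : ℝ} (ha : 0 ≤ a) (hb : 0 < b) :
    0 ≤ a * Real.log (a / b) - a + b := by
  rcases ha.eq_or_lt with rfl | ha'
  · simpa using hb.le
  · have h := Real.log_le_sub_one_of_pos (div_pos hb ha')
    have h2 : Real.log (b / a) = - Real.log (a / b) := by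
      rw [← Real.log_inv, inv_div]
    have h3 : a * Real.log (b / a) ≤ a * (b / a - 1) := mul_le_mul_of_nonneg_left h ha'.le
    have h4 : a * (b / a - 1) = b - a := by field_simp
    rw [h2, h4] at h3
    linarith

theorem gibbs_eq_zero {a b : ℝ} (ha : 0 ≤ a) (hb : 0 < b)
    (h : a * Real.log (a / b) - a + b = 0) : a = b := by
  rcases ha.eq_or_lt with rfl | ha'
  · simp at h
    linarith
  · by_contra hne
    have hx : b / a ≠ 1 := by
      intro h1
      apply hne
      field_simp at h1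
      linarith
    have h' := Real.log_lt_sub_one_of_pos (div_pos hb ha') hx
    have h2 : Real.log (b / a) = - Real.log (a / b) := by
      rw [← Real.log_inv, inv_div]
    have h3 : a * Real.log (b / a) < a * (b / a - 1) := mul_lt_mul_of_pos_left h' ha'
    have h4 : a * (b / a - 1) = b - a := by field_simp
    rw [h2, h4] at h3
    linarith

theorem log_stdMaxwellian (z : Phase) :
    Real.log (stdMaxwellian z) = -(3 / 2 : ℝ) * Real.log (2 * π) - ‖z.2‖ ^ 2 / 2 := by
  unfold stdMaxwellian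
  have hpos : (0 : ℝ) < 2 * π := by positivity
  rw [Real.log_mul (by positivity) (Real.exp_pos _).ne', Real.log_rpow hpos, Real.log_exp]
  ring

theorem log_maxwellian {ρ θ : ℝ} (u : EuclideanSpace ℝ (Fin 3)) (hρ : 0 < ρ) (hθ : 0 < θ)
    (z : Phase) :
    Real.log (maxwellian ρ θ u z) =
      Real.log ρ - (3 / 2 : ℝ) * (Real.log (2 * π) + Real.log θ) - ‖z.2 - u‖ ^ 2 / (2 * θ) := by
  unfold maxwellian
  have hpos : (0 : ℝ) < 2 * π := by positivity
  have hpos' : (0 : ℝ) < 2 * π * θ := by positivity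
  rw [Real.log_mul (by positivity) (Real.exp_pos _).ne', Real.log_mul hρ.ne' (by positivity),
    Real.log_rpow hpos', Real.log_exp, Real.log_mul hpos.ne' hθ.ne']
  ring

/-- Static form: a nonnegative density with the mass and momentum of a cold global Maxwellian,
no more energy and no more `H_M`-entropy coincides with it almost everywhere. -/
theorem static_unique (ρ θ : ℝ) (u : EuclideanSpace ℝ (Fin 3)) (hρ : 0 < ρ) (hθ : 0 < θ)
    (hθ1 : θ ≤ 1) (f g : Phase → ℝ) (hg : g = maxwellian ρ θ u)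
    (hnn : ∀ z, 0 ≤ f z)
    (hf : Integrable f) (hf2 : Integrable (fun z : Phase => ‖z.2‖ ^ 2 * f z))
    (hflog : Integrable (fun z : Phase => f z * Real.log (f z)))
    (hG : Integrable g) (hG2 : Integrable (fun z : Phase => ‖z.2‖ ^ 2 * g z))
    (hGlog : Integrable (fun z : Phase => g z * Real.log (g z)))
    (hmass : ∫ z, f z = ∫ z, g z)
    (hmom : ∫ z : Phase, f z • z.2 = ∫ z : Phase, g z • z.2)
    (hen : ∫ z : Phase, ‖z.2‖ ^ 2 * f z ≤ ∫ z : Phase, ‖z.2‖ ^ 2 * g z)
    (hent : relEntropy f ≤ relEntropy g) :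
    f =ᵐ[volume] g := by
  have hgpos : ∀ z, 0 < g z := fun z => by rw [hg]; exact maxwellian_pos u hρ hθ z
  have hMpos := stdMaxwellian_pos
  have hMint := integrable_stdMaxwellian
  set a : ℝ := 1 / (2 * θ) - 1 / 2 with ha
  set c0 : ℝ := ‖u‖ ^ 2 / (2 * θ) + (3 / 2 : ℝ) * Real.log θ - Real.log ρ with hc0
  have ha0 : 0 ≤ a := by
    rw [ha]
    have : 1 / 2 ≤ 1 / (2 * θ) := by
      rw [div_le_div_iff₀ (by norm_num) (by positivity)]
      linarith
    linarith
  -- the momentum integrand is integrable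
  have hmomint : ∀ h : Phase → ℝ, (∀ z, 0 ≤ h z) → Integrable h →
      Integrable (fun z : Phase => ‖z.2‖ ^ 2 * h z) → Integrable (fun z : Phase => h z • z.2) := by
    intro h hnn' hh hh2
    refine Integrable.mono' (hh.add hh2)
      (hh.aestronglyMeasurable.smul continuous_snd.aestronglyMeasurable)
      (Filter.Eventually.of_forall fun z => ?_)
    rw [norm_smul, Real.norm_eq_abs, abs_of_nonneg (hnn' z)]
    have h1 : ‖z.2‖ ≤ 1 + ‖z.2‖ ^ 2 := by nlinarith [norm_nonneg z.2, sq_nonneg (‖z.2‖ - 1)]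
    have := mul_le_mul_of_nonneg_left h1 (hnn' z)
    simp only [Pi.add_apply]
    linarith
  -- pointwise form of the entropy integrand
  have hT1 : ∀ h : Phase → ℝ, (∀ z, 0 ≤ h z) → ∀ z,
      h z * Real.log (h z / stdMaxwellian z) - h z + stdMaxwellian z =
        h z * Real.log (h z) + (3 / 2 : ℝ) * Real.log (2 * π) * h z
          + (1 / 2 : ℝ) * (‖z.2‖ ^ 2 * h z) - h z + stdMaxwellian z := by
    intro h hnn' z
    rcases (hnn' z).eq_or_lt with h0 | hpos
    · simp [← h0]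
    · rw [Real.log_div hpos.ne' (hMpos z).ne', log_stdMaxwellian]
      ring
  have hT1int : ∀ h : Phase → ℝ, (∀ z, 0 ≤ h z) → Integrable h →
      Integrable (fun z : Phase => ‖z.2‖ ^ 2 * h z) →
      Integrable (fun z : Phase => h z * Real.log (h z)) →
      Integrable (fun z : Phase => h z * Real.log (h z / stdMaxwellian z) - h z
        + stdMaxwellian z) := by
    intro h hnn' hh hh2 hhlog
    have : Integrable (fun z : Phase => h z * Real.log (h z) + (3 / 2 : ℝ) * Real.log (2 * π) * h z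
          + (1 / 2 : ℝ) * (‖z.2‖ ^ 2 * h z) - h z + stdMaxwellian z) :=
      ((((hhlog.add (hh.const_mul _)).add (hh2.const_mul _)).sub hh).add hMint)
    exact this.congr (Filter.Eventually.of_forall fun z => (hT1 h hnn' z).symm)
  -- pointwise decomposition of the relative entropy integrand with respect to `g`
  have hΦ : ∀ h : Phase → ℝ, (∀ z, 0 ≤ h z) → ∀ z,
      h z * Real.log (h z / g z) - h z + g z =
        (h z * Real.log (h z / stdMaxwellian z) - h z + stdMaxwellian z)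
          + a * (‖z.2‖ ^ 2 * h z) - (1 / θ) * (inner ℝ u (h z • z.2)) + c0 * h z
          + (g z - stdMaxwellian z) := by
    intro h hnn' z
    rcases (hnn' z).eq_or_lt with h0 | hpos
    · simp [← h0]
    · rw [Real.log_div hpos.ne' (hMpos z).ne', Real.log_div hpos.ne' (hgpos z).ne',
        log_stdMaxwellian, hg, log_maxwellian u hρ hθ, inner_smul_right,
        norm_sub_sq_real, ha, hc0, real_inner_comm u z.2]
      field_simp
      ring
  have hΦint : ∀ h : Phase → ℝ, (∀ z, 0 ≤ h z) → Integrable h →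
      Integrable (fun z : Phase => ‖z.2‖ ^ 2 * h z) →
      Integrable (fun z : Phase => h z * Real.log (h z)) →
      Integrable (fun z : Phase => h z * Real.log (h z / g z) - h z + g z) := by
    intro h hnn' hh hh2 hhlog
    have : Integrable (fun z : Phase =>
        (h z * Real.log (h z / stdMaxwellian z) - h z + stdMaxwellian z)
          + a * (‖z.2‖ ^ 2 * h z) - (1 / θ) * (inner ℝ u (h z • z.2)) + c0 * h z
          + (g z - stdMaxwellian z)) :=
      (((((hT1int h hnn' hh hh2 hhlog).add (hh2.const_mul a)).sub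
        (((hmomint h hnn' hh hh2).const_inner u).const_mul (1 / θ))).add (hh.const_mul c0)).add
        (hG.sub hMint))
    exact this.congr (Filter.Eventually.of_forall fun z => (hΦ h hnn' z).symm)
  have hΦval : ∀ h : Phase → ℝ, (∀ z, 0 ≤ h z) → Integrable h →
      Integrable (fun z : Phase => ‖z.2‖ ^ 2 * h z) →
      Integrable (fun z : Phase => h z * Real.log (h z)) →
      ∫ z, (h z * Real.log (h z / g z) - h z + g z) =
        relEntropy h + a * (∫ z : Phase, ‖z.2‖ ^ 2 * h z)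
          - (1 / θ) * (inner ℝ u (∫ z : Phase, h z • z.2)) + c0 * (∫ z, h z)
          + ∫ z, (g z - stdMaxwellian z) := by
    intro h hnn' hh hh2 hhlog
    have e1 := hT1int h hnn' hh hh2 hhlog
    have e2 := hh2.const_mul a
    have e3 := ((hmomint h hnn' hh hh2).const_inner u).const_mul (1 / θ)
    have e4 := hh.const_mul c0
    have e5 := hG.sub hMint
    rw [integral_congr_ae (Filter.Eventually.of_forall fun z => hΦ h hnn' z)]
    have s1 : ∫ z : Phase, ((h z * Real.log (h z / stdMaxwellian z) - h z + stdMaxwellian z)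
          + a * (‖z.2‖ ^ 2 * h z) - (1 / θ) * (inner ℝ u (h z • z.2)) + c0 * h z
          + (g z - stdMaxwellian z)) =
        (∫ z : Phase, ((h z * Real.log (h z / stdMaxwellian z) - h z + stdMaxwellian z)
          + a * (‖z.2‖ ^ 2 * h z) - (1 / θ) * (inner ℝ u (h z • z.2)) + c0 * h z))
          + ∫ z : Phase, (g z - stdMaxwellian z) :=
      integral_add (((e1.add e2).sub e3).add e4) e5
    have s2 : ∫ z : Phase, ((h z * Real.log (h z / stdMaxwellian z) - h z + stdMaxwellian z)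
          + a * (‖z.2‖ ^ 2 * h z) - (1 / θ) * (inner ℝ u (h z • z.2)) + c0 * h z) =
        (∫ z : Phase, ((h z * Real.log (h z / stdMaxwellian z) - h z + stdMaxwellian z)
          + a * (‖z.2‖ ^ 2 * h z) - (1 / θ) * (inner ℝ u (h z • z.2))))
          + ∫ z : Phase, c0 * h z :=
      integral_add ((e1.add e2).sub e3) e4
    have s3 : ∫ z : Phase, ((h z * Real.log (h z / stdMaxwellian z) - h z + stdMaxwellian z)
          + a * (‖z.2‖ ^ 2 * h z) - (1 / θ) * (inner ℝ u (h z • z.2))) =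
        (∫ z : Phase, ((h z * Real.log (h z / stdMaxwellian z) - h z + stdMaxwellian z)
          + a * (‖z.2‖ ^ 2 * h z)))
          - ∫ z : Phase, (1 / θ) * (inner ℝ u (h z • z.2)) :=
      integral_sub (e1.add e2) e3
    have s4 : ∫ z : Phase, ((h z * Real.log (h z / stdMaxwellian z) - h z + stdMaxwellian z)
          + a * (‖z.2‖ ^ 2 * h z)) =
        (∫ z : Phase, (h z * Real.log (h z / stdMaxwellian z) - h z + stdMaxwellian z))
          + ∫ z : Phase, a * (‖z.2‖ ^ 2 * h z) :=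
      integral_add e1 e2
    have s5 : ∫ z : Phase, a * (‖z.2‖ ^ 2 * h z) = a * ∫ z : Phase, ‖z.2‖ ^ 2 * h z :=
      integral_const_mul _ _
    have s6 : ∫ z : Phase, c0 * h z = c0 * ∫ z : Phase, h z := integral_const_mul _ _
    have s7 : ∫ z : Phase, (1 / θ) * (inner ℝ u (h z • z.2)) =
        (1 / θ) * inner ℝ u (∫ z : Phase, h z • z.2) := by
      rw [integral_const_mul, integral_inner (hmomint h hnn' hh hh2)]
    rw [s1, s2, s3, s4, s5, s6, s7]
    rfl
  have hgnn : ∀ z, 0 ≤ g z := fun z => (hgpos z).le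
  have hf_val := hΦval f hnn hf hf2 hflog
  have hg_val := hΦval g hgnn hG hG2 hGlog
  have hg_zero : ∫ z, (g z * Real.log (g z / g z) - g z + g z) = 0 := by
    have : ∀ z, g z * Real.log (g z / g z) - g z + g z = 0 := by
      intro z
      rw [div_self (hgpos z).ne']
      simp
    simp only [this, integral_zero]
  have hle : ∫ z, (f z * Real.log (f z / g z) - f z + g z) ≤ 0 := by
    have h1 : ∫ z, (f z * Real.log (f z / g z) - f z + g z) =
        (relEntropy f - relEntropy g)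
          + a * ((∫ z : Phase, ‖z.2‖ ^ 2 * f z) - ∫ z : Phase, ‖z.2‖ ^ 2 * g z) := by
      rw [hg_zero] at hg_val
      rw [hf_val, hmass, hmom]
      linarith
    rw [h1]
    have h2 : a * ((∫ z : Phase, ‖z.2‖ ^ 2 * f z) - ∫ z : Phase, ‖z.2‖ ^ 2 * g z) ≤ 0 :=
      mul_nonpos_of_nonneg_of_nonpos ha0 (by linarith)
    linarith
  have hnonneg : 0 ≤ fun z => f z * Real.log (f z / g z) - f z + g z :=
    fun z => gibbs_nonneg (hnn z) (hgpos z)
  have hzero : ∫ z, (f z * Real.log (f z / g z) - f z + g z) = 0 :=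
    le_antisymm hle (integral_nonneg hnonneg)
  have hae := (integral_eq_zero_iff_of_nonneg hnonneg (hΦint f hnn hf hf2 hflog)).mp hzero
  filter_upwards [hae] with z hz
  exact gibbs_eq_zero (hnn z) (hgpos z) hz


/-- Integrability over velocity space of a shifted Gaussian. -/
theorem integrable_shifted_gaussian (c : ℝ) (hc : 0 < c) (u : EuclideanSpace ℝ (Fin 3)) :
    Integrable (fun v : EuclideanSpace ℝ (Fin 3) => Real.exp (-‖v - u‖ ^ 2 * c)) := by
  have h1 : Integrable (fun v : EuclideanSpace ℝ (Fin 3) =>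
      Complex.exp (-((c : ℝ) : ℂ) * ‖v‖ ^ 2 + ((2 * c : ℝ) : ℂ) * (inner ℝ u v : ℝ))) :=
    GaussianFourier.integrable_cexp_neg_mul_sq_norm_add (by simpa using hc) _ _
  have h3 := h1.norm.const_mul (Real.exp (-‖u‖ ^ 2 * c))
  refine h3.congr (Filter.Eventually.of_forall fun v => ?_)
  simp only [Complex.norm_exp]
  rw [← Real.exp_add]
  congr 1
  have h4 : ((‖v‖ : ℂ) ^ 2).re = ‖v‖ ^ 2 := by
    rw [← Complex.ofReal_pow, Complex.ofReal_re]
  simp only [neg_mul, Complex.add_re, Complex.neg_re, Complex.re_ofReal_mul, h4,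
    Complex.ofReal_re]
  rw [norm_sub_sq_real, real_inner_comm u v]
  ring

theorem integrable_maxwellian_family (ρ θ : ℝ) (u : EuclideanSpace ℝ (Fin 3)) (hρ : 0 < ρ)
    (hθ : 0 < θ) :
    Integrable (maxwellian ρ θ u) ∧
    Integrable (fun z : Phase => ‖z.2‖ ^ 2 * maxwellian ρ θ u z) ∧
    Integrable (fun z : Phase => maxwellian ρ θ u z * Real.log (maxwellian ρ θ u z)) := by
  set A : ℝ := ρ * (2 * π * θ) ^ (-(3 / 2 : ℝ)) with hA
  have hApos : 0 < A := by rw [hA]; positivity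
  have hgauss := integrable_shifted_gaussian (1 / (4 * θ)) (by positivity) u
  have hgauss2 := integrable_shifted_gaussian (1 / (2 * θ)) (by positivity) u
  -- the key elementary bound `s * exp (-s / (2θ)) ≤ 4θ * exp (-s / (4θ))`
  have key : ∀ s : ℝ, 0 ≤ s → s * Real.exp (-s * (1 / (2 * θ))) ≤
      4 * θ * Real.exp (-s * (1 / (4 * θ))) := by
    intro s hs
    have h1 : s / (4 * θ) + 1 ≤ Real.exp (s / (4 * θ)) := Real.add_one_le_exp _
    have h2 : Real.exp (-s * (1 / (2 * θ))) =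
        Real.exp (-s * (1 / (4 * θ))) * Real.exp (-(s / (4 * θ))) := by
      rw [← Real.exp_add]
      congr 1
      field_simp
      ring
    have h3 : s * Real.exp (-(s / (4 * θ))) ≤ 4 * θ := by
      have h4 : s ≤ 4 * θ * Real.exp (s / (4 * θ)) := by
        have : s = 4 * θ * (s / (4 * θ)) := by field_simp
        nlinarith [Real.exp_pos (s / (4 * θ))]
      rw [Real.exp_neg, ← div_eq_mul_inv, div_le_iff₀ (Real.exp_pos _)]
      exact h4
    rw [h2]
    calc s * (Real.exp (-s * (1 / (4 * θ))) * Real.exp (-(s / (4 * θ))))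
        = (s * Real.exp (-(s / (4 * θ)))) * Real.exp (-s * (1 / (4 * θ))) := by ring
      _ ≤ 4 * θ * Real.exp (-s * (1 / (4 * θ))) :=
        mul_le_mul_of_nonneg_right h3 (Real.exp_pos _).le
  have hle : ∀ s : ℝ, 0 ≤ s → Real.exp (-s * (1 / (2 * θ))) ≤ Real.exp (-s * (1 / (4 * θ))) := by
    intro s hs
    apply Real.exp_le_exp.mpr
    have : 1 / (4 * θ) ≤ 1 / (2 * θ) := by
      apply one_div_le_one_div_of_le (by positivity)
      linarith
    nlinarith
  have hmax : ∀ v : EuclideanSpace ℝ (Fin 3), ∀ x : Fin 3 → UnitAddCircle,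
      maxwellian ρ θ u (x, v) = A * Real.exp (-‖v - u‖ ^ 2 * (1 / (2 * θ))) := by
    intro v x
    unfold maxwellian
    rw [hA]
    congr 2
    field_simp
  -- velocity-space statements
  have i1 : Integrable (fun v : EuclideanSpace ℝ (Fin 3) =>
      A * Real.exp (-‖v - u‖ ^ 2 * (1 / (2 * θ)))) := hgauss2.const_mul A
  have cont1 : Continuous (fun v : EuclideanSpace ℝ (Fin 3) =>
      Real.exp (-‖v - u‖ ^ 2 * (1 / (2 * θ)))) := by fun_prop
  have i2 : Integrable (fun v : EuclideanSpace ℝ (Fin 3) =>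
      ‖v‖ ^ 2 * (A * Real.exp (-‖v - u‖ ^ 2 * (1 / (2 * θ))))) := by
    refine Integrable.mono' (hgauss.const_mul (A * (8 * θ + 2 * ‖u‖ ^ 2)))
      (by fun_prop) (Filter.Eventually.of_forall fun v => ?_)
    have hs : 0 ≤ ‖v - u‖ ^ 2 := by positivity
    have h1 : ‖v‖ ^ 2 ≤ 2 * ‖v - u‖ ^ 2 + 2 * ‖u‖ ^ 2 := by
      have : ‖v‖ ≤ ‖v - u‖ + ‖u‖ := by
        calc ‖v‖ = ‖(v - u) + u‖ := by rw [sub_add_cancel]
          _ ≤ ‖v - u‖ + ‖u‖ := norm_add_le _ _
      nlinarith [norm_nonneg v, norm_nonneg (v - u), norm_nonneg u, sq_nonneg (‖v - u‖ - ‖u‖)]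
    have k1 := key _ hs
    have k2 := hle _ hs
    have e1 : 0 < Real.exp (-‖v - u‖ ^ 2 * (1 / (2 * θ))) := Real.exp_pos _
    rw [Real.norm_eq_abs, abs_of_nonneg (by positivity)]
    have hu : 0 ≤ ‖u‖ ^ 2 := by positivity
    calc ‖v‖ ^ 2 * (A * Real.exp (-‖v - u‖ ^ 2 * (1 / (2 * θ))))
        ≤ (2 * ‖v - u‖ ^ 2 + 2 * ‖u‖ ^ 2) * (A * Real.exp (-‖v - u‖ ^ 2 * (1 / (2 * θ)))) :=
          mul_le_mul_of_nonneg_right h1 (by positivity)
      _ = A * (2 * (‖v - u‖ ^ 2 * Real.exp (-‖v - u‖ ^ 2 * (1 / (2 * θ))))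
            + 2 * ‖u‖ ^ 2 * Real.exp (-‖v - u‖ ^ 2 * (1 / (2 * θ)))) := by ring
      _ ≤ A * (2 * (4 * θ * Real.exp (-‖v - u‖ ^ 2 * (1 / (4 * θ))))
            + 2 * ‖u‖ ^ 2 * Real.exp (-‖v - u‖ ^ 2 * (1 / (4 * θ)))) := by
          apply mul_le_mul_of_nonneg_left _ hApos.le
          have := mul_le_mul_of_nonneg_left k2 (by positivity : (0 : ℝ) ≤ 2 * ‖u‖ ^ 2)
          linarith
      _ = A * (8 * θ + 2 * ‖u‖ ^ 2) * Real.exp (-‖v - u‖ ^ 2 * (1 / (4 * θ))) := by ring
  have i3 : Integrable (fun v : EuclideanSpace ℝ (Fin 3) =>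
      (A * Real.exp (-‖v - u‖ ^ 2 * (1 / (2 * θ)))) *
        Real.log (A * Real.exp (-‖v - u‖ ^ 2 * (1 / (2 * θ))))) := by
    have hlog : ∀ v : EuclideanSpace ℝ (Fin 3),
        Real.log (A * Real.exp (-‖v - u‖ ^ 2 * (1 / (2 * θ)))) =
          Real.log A + -‖v - u‖ ^ 2 * (1 / (2 * θ)) := by
      intro v
      rw [Real.log_mul hApos.ne' (Real.exp_pos _).ne', Real.log_exp]
    simp only [hlog]
    refine Integrable.mono' (hgauss.const_mul (A * (|Real.log A| + 2))) (by fun_prop)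
      (Filter.Eventually.of_forall fun v => ?_)
    have hs : 0 ≤ ‖v - u‖ ^ 2 := by positivity
    have k1 := key _ hs
    have k2 := hle _ hs
    have e1 : 0 < Real.exp (-‖v - u‖ ^ 2 * (1 / (2 * θ))) := Real.exp_pos _
    have e2 : 0 < Real.exp (-‖v - u‖ ^ 2 * (1 / (4 * θ))) := Real.exp_pos _
    rw [Real.norm_eq_abs, abs_mul, abs_of_pos (mul_pos hApos e1)]
    have h5 : |Real.log A + -‖v - u‖ ^ 2 * (1 / (2 * θ))| ≤
        |Real.log A| + ‖v - u‖ ^ 2 * (1 / (2 * θ)) := by
      have hc : 0 ≤ ‖v - u‖ ^ 2 * (1 / (2 * θ)) := by positivity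
      calc |Real.log A + -‖v - u‖ ^ 2 * (1 / (2 * θ))|
          ≤ |Real.log A| + |-‖v - u‖ ^ 2 * (1 / (2 * θ))| := abs_add_le _ _
        _ = |Real.log A| + ‖v - u‖ ^ 2 * (1 / (2 * θ)) := by
          rw [show -‖v - u‖ ^ 2 * (1 / (2 * θ)) = -(‖v - u‖ ^ 2 * (1 / (2 * θ))) by ring,
            abs_neg, abs_of_nonneg hc]
    have h6 : ‖v - u‖ ^ 2 * (1 / (2 * θ)) * Real.exp (-‖v - u‖ ^ 2 * (1 / (2 * θ))) ≤
        2 * Real.exp (-‖v - u‖ ^ 2 * (1 / (4 * θ))) := by
      have : ‖v - u‖ ^ 2 * (1 / (2 * θ)) * Real.exp (-‖v - u‖ ^ 2 * (1 / (2 * θ))) =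
          (1 / (2 * θ)) * (‖v - u‖ ^ 2 * Real.exp (-‖v - u‖ ^ 2 * (1 / (2 * θ)))) := by ring
      rw [this]
      calc (1 / (2 * θ)) * (‖v - u‖ ^ 2 * Real.exp (-‖v - u‖ ^ 2 * (1 / (2 * θ))))
          ≤ (1 / (2 * θ)) * (4 * θ * Real.exp (-‖v - u‖ ^ 2 * (1 / (4 * θ)))) :=
            mul_le_mul_of_nonneg_left k1 (by positivity)
        _ = 2 * Real.exp (-‖v - u‖ ^ 2 * (1 / (4 * θ))) := by field_simp; ring
    calc A * Real.exp (-‖v - u‖ ^ 2 * (1 / (2 * θ))) *
          |Real.log A + -‖v - u‖ ^ 2 * (1 / (2 * θ))|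
        ≤ A * Real.exp (-‖v - u‖ ^ 2 * (1 / (2 * θ))) *
          (|Real.log A| + ‖v - u‖ ^ 2 * (1 / (2 * θ))) :=
          mul_le_mul_of_nonneg_left h5 (mul_pos hApos e1).le
      _ = A * (|Real.log A| * Real.exp (-‖v - u‖ ^ 2 * (1 / (2 * θ)))
            + ‖v - u‖ ^ 2 * (1 / (2 * θ)) * Real.exp (-‖v - u‖ ^ 2 * (1 / (2 * θ)))) := by ring
      _ ≤ A * (|Real.log A| * Real.exp (-‖v - u‖ ^ 2 * (1 / (4 * θ)))
            + 2 * Real.exp (-‖v - u‖ ^ 2 * (1 / (4 * θ)))) := by
          apply mul_le_mul_of_nonneg_left _ hApos.le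
          have := mul_le_mul_of_nonneg_left k2 (abs_nonneg (Real.log A))
          linarith
      _ = A * (|Real.log A| + 2) * Real.exp (-‖v - u‖ ^ 2 * (1 / (4 * θ))) := by ring
  refine ⟨?_, ?_, ?_⟩
  · exact (i1.comp_snd (volume : Measure (Fin 3 → UnitAddCircle))).congr
      (Filter.Eventually.of_forall fun z => (hmax z.2 z.1).symm)
  · exact (i2.comp_snd (volume : Measure (Fin 3 → UnitAddCircle))).congr
      (Filter.Eventually.of_forall fun z => by simp only [← hmax z.2 z.1])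
  · exact (i3.comp_snd (volume : Measure (Fin 3 → UnitAddCircle))).congr
      (Filter.Eventually.of_forall fun z => by simp only [← hmax z.2 z.1])

end Vale.Agent.H38.P140
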