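import Vale.Agent.H38.P141Defs

/-!
# P141 : plateau functions built from integer-centred smooth bumps
-/

namespace Vale.Agent.H38.P141

open MeasureTheory Filter Topology Metric
open scoped ENNReal NNReal ContDiff

/-- A fixed smooth bump on `ℝ`: equal to `1` on `[-1/8,1/8]`, supported in `(-1/4,1/4)`. -/
noncomputable def bump0 : ContDiffBump (0 : ℝ) := ⟨1 / 8, 1 / 4, by norm_num, by norm_num⟩

theorem bump0_nonneg (x : ℝ) : 0 ≤ bump0 x := bump0.nonneg

theorem bump0_le_one (x : ℝ) : bump0 x ≤ 1 := bump0.le_one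

theorem bump0_eq_one {x : ℝ} (hx : |x| ≤ 1 / 8) : bump0 x = 1 := by
  apply bump0.one_of_mem_closedBall
  simpa [bump0, Real.dist_eq] using hx

theorem bump0_eq_zero {x : ℝ} (hx : 1 / 4 ≤ |x|) : bump0 x = 0 := by
  apply bump0.zero_of_le_dist
  simpa [bump0, Real.dist_eq] using hx

theorem bump0_ne_zero {x : ℝ} (hx : bump0 x ≠ 0) : |x| < 1 / 4 := by
  by_contra h
  exact hx (bump0_eq_zero (not_lt.mp h))

/-- The plateau function of a finite set of integers: sum of unit bumps centred at its points. -/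
noncomputable def plateau (A : Finset ℤ) (x : ℝ) : ℝ := ∑ n ∈ A, bump0 (x - (n : ℝ))

theorem plateau_nonneg (A : Finset ℤ) (x : ℝ) : 0 ≤ plateau A x :=
  Finset.sum_nonneg fun n _ => bump0_nonneg _

theorem plateau_ne_zero {A : Finset ℤ} {x : ℝ} (hx : plateau A x ≠ 0) :
    ∃ n ∈ A, |x - (n : ℝ)| < 1 / 4 := by
  obtain ⟨n, hn, hne⟩ := Finset.exists_ne_zero_of_sum_ne_zero hx
  exact ⟨n, hn, bump0_ne_zero hne⟩

theorem plateau_le_one (A : Finset ℤ) (x : ℝ) : plateau A x ≤ 1 := by
  by_cases h0 : plateau A x = 0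
  · rw [h0]; exact zero_le_one
  · obtain ⟨n, hn, hlt⟩ := plateau_ne_zero h0
    have : plateau A x = bump0 (x - (n : ℝ)) := by
      unfold plateau
      apply Finset.sum_eq_single n
      · intro m _ hmn
        apply bump0_eq_zero
        have h1 : (1 : ℝ) ≤ |(m : ℝ) - (n : ℝ)| := by
          have : (1 : ℤ) ≤ |m - n| := Int.one_le_abs (sub_ne_zero.mpr hmn)
          exact_mod_cast this
        have h2 : |(m : ℝ) - (n : ℝ)| ≤ |x - (n : ℝ)| + |x - (m : ℝ)| := by
          have : (m : ℝ) - (n : ℝ) = (x - n) - (x - m) := by ring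
          rw [this]
          exact abs_sub _ _
        linarith
      · intro h; exact absurd hn h
    rw [this]
    exact bump0_le_one _

theorem plateau_eq_one {A : Finset ℤ} {x : ℝ} {n : ℤ} (hn : n ∈ A) (hx : |x - (n : ℝ)| ≤ 1 / 8) :
    plateau A x = 1 := by
  apply le_antisymm (plateau_le_one A x)
  have h1 : bump0 (x - (n : ℝ)) ≤ plateau A x :=
    Finset.single_le_sum (f := fun m : ℤ => bump0 (x - (m : ℝ))) (fun m _ => bump0_nonneg _) hn
  rwa [bump0_eq_one hx] at h1

theorem plateau_continuous (A : Finset ℤ) : Continuous (plateau A) := by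
  unfold plateau
  exact continuous_finsetSum _ fun n _ => bump0.continuous.comp (continuous_id.sub continuous_const)

theorem plateau_contDiff (A : Finset ℤ) : ContDiff ℝ ∞ (fun x : ℝ => ((plateau A x : ℝ) : ℂ)) := by
  have h1 : ContDiff ℝ ∞ (plateau A) := by
    unfold plateau
    exact ContDiff.sum fun n _ => bump0.contDiff.comp (contDiff_id.sub contDiff_const)
  exact Complex.ofRealCLM.contDiff.comp h1

theorem plateau_hasCompactSupport (A : Finset ℤ) :
    HasCompactSupport (fun x : ℝ => ((plateau A x : ℝ) : ℂ)) := by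
  apply HasCompactSupport.intro (K := ⋃ n ∈ A, closedBall ((n : ℝ)) (1 / 4))
  · exact A.isCompact_biUnion fun n _ => isCompact_closedBall _ _
  · intro x hx
    have : plateau A x = 0 := by
      by_contra h0
      obtain ⟨n, hn, hlt⟩ := plateau_ne_zero h0
      apply hx
      simp only [Set.mem_iUnion, mem_closedBall, Real.dist_eq]
      exact ⟨n, hn, hlt.le⟩
    simp [this]

/-- The plateau function as a complex Schwartz function. -/
noncomputable def fS (A : Finset ℤ) : SchwartzMap ℝ ℂ :=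
  (plateau_hasCompactSupport A).toSchwartzMap (plateau_contDiff A)

theorem fS_apply (A : Finset ℤ) (x : ℝ) : fS A x = ((plateau A x : ℝ) : ℂ) := rfl

/-- `L^p` bound of the plateau function. -/
theorem eLpNorm_fS_le (A : Finset ℤ) (p : ℝ≥0∞) :
    eLpNorm (fS A) p volume ≤ (A.card : ℝ≥0∞) ^ (1 / p.toReal) := by
  set S : Set ℝ := ⋃ n ∈ A, Set.Ioo ((n : ℝ) - 1 / 4) ((n : ℝ) + 1 / 4) with hS
  have hpt : ∀ x, ‖fS A x‖ ≤ S.indicator (fun _ => (1 : ℝ)) x := by
    intro x
    rw [fS_apply, Complex.norm_real, Real.norm_eq_abs, abs_of_nonneg (plateau_nonneg A x)]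
    by_cases h0 : plateau A x = 0
    · rw [h0]; exact Set.indicator_nonneg (fun _ _ => zero_le_one) x
    · obtain ⟨n, hn, hlt⟩ := plateau_ne_zero h0
      have hxS : x ∈ S := by
        simp only [hS, Set.mem_iUnion, Set.mem_Ioo]
        rw [abs_lt] at hlt
        exact ⟨n, hn, by linarith [hlt.1], by linarith [hlt.2]⟩
      rw [Set.indicator_of_mem hxS]
      exact plateau_le_one A x
  have hvol : volume S ≤ (A.card : ℝ≥0∞) := by
    calc volume S ≤ ∑ n ∈ A, volume (Set.Ioo ((n : ℝ) - 1 / 4) ((n : ℝ) + 1 / 4)) :=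
          measure_biUnion_finset_le _ _
      _ ≤ ∑ n ∈ A, (1 : ℝ≥0∞) := by
          apply Finset.sum_le_sum
          intro n _
          rw [Real.volume_Ioo]
          apply ENNReal.ofReal_le_one.mpr
          linarith
      _ = (A.card : ℝ≥0∞) := by simp
  calc eLpNorm (fS A) p volume ≤ eLpNorm (S.indicator (fun _ => (1 : ℝ))) p volume :=
        eLpNorm_mono_real hpt
    _ ≤ ‖(1 : ℝ)‖ₑ * volume S ^ (1 / p.toReal) := eLpNorm_indicator_const_le _ _
    _ ≤ (A.card : ℝ≥0∞) ^ (1 / p.toReal) := by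
        rw [enorm_one, one_mul]
        exact ENNReal.rpow_le_rpow hvol (by positivity)

end Vale.Agent.H38.P141
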