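import Vale.Agent.H38.P141Main

/-!
# P141 : explicit configurations and the resulting regions of unboundedness
-/

namespace Vale.Agent.H38.P141

open MeasureTheory Filter Topology
open scoped ENNReal NNReal

theorem log_le_of_pow_le {N b n k : ℕ} (hN : 0 < N) (hn : 0 < n) (h : N ^ n ≤ b ^ k) :
    Real.log N ≤ ((k : ℝ) / n) * Real.log b := by
  have hNR : (0 : ℝ) < N := by exact_mod_cast hN
  have h' : (N : ℝ) ^ n ≤ (b : ℝ) ^ k := by exact_mod_cast h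
  have h2 := Real.log_le_log (pow_pos hNR n) h'
  rw [Real.log_pow, Real.log_pow] at h2
  have hnR : (0 : ℝ) < n := by exact_mod_cast hn
  rw [div_mul_eq_mul_div, le_div_iff₀ hnR]
  linarith

/-- Linear form of the criterion for a configuration with a complete system of residues. -/
theorem lin_criterion (G : Finset (ℤ × ℤ)) (b : ℕ) (hb : 2 ≤ b)
    (hinj : ∀ p ∈ G, ∀ q ∈ G, (b : ℤ) ∣ (3 * p.2 - 2 * p.1) - (3 * q.2 - 2 * q.1) → p = q)
    (hcard : G.card = b) (NC NB NA : ℕ)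
    (hNC : (G.image (fun p : ℤ × ℤ => 2 * p.2 - p.1)).card = NC)
    (hNB : (G.image Prod.snd).card = NB) (hNA : (G.image Prod.fst).card = NA)
    (hNC0 : 0 < NC) (hNB0 : 0 < NB) (hNA0 : 0 < NA) (q₁ q₂ q₃ : ℝ)
    (h₁ : Real.log NC ≤ (1 - q₁) * Real.log b) (h₂ : Real.log NB ≤ (1 - q₂) * Real.log b)
    (h₃ : Real.log NA ≤ (1 - q₃) * Real.log b)
    (p₁ p₂ p₃ r : ℝ≥0∞) (hr0 : r ≠ 0) (hrT : r ≠ ⊤)
    (hs : 1 / r.toReal = 1 / p₁.toReal + 1 / p₂.toReal + 1 / p₃.toReal)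
    (hlin : 1 < q₁ * (1 / p₁.toReal) + q₂ * (1 / p₂.toReal) + q₃ * (1 / p₃.toReal)) :
    ¬ BoundedAt p₁ p₂ p₃ r := by
  apply criterion G b hb hinj p₁ p₂ p₃ r hr0 hrT
  rw [hcard, hNC, hNB, hNA, hs]
  have ha₁ : (0 : ℝ) ≤ 1 / p₁.toReal := by positivity
  have ha₂ : (0 : ℝ) ≤ 1 / p₂.toReal := by positivity
  have ha₃ : (0 : ℝ) ≤ 1 / p₃.toReal := by positivity
  set a₁ := 1 / p₁.toReal
  set a₂ := 1 / p₂.toReal
  set a₃ := 1 / p₃.toReal
  have hbR : (1 : ℝ) < b := by exact_mod_cast hb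
  have hbpos : (0 : ℝ) < b := by linarith
  have hlogb : 0 < Real.log b := Real.log_pos hbR
  have hNCR : (0 : ℝ) < NC := by exact_mod_cast hNC0
  have hNBR : (0 : ℝ) < NB := by exact_mod_cast hNB0
  have hNAR : (0 : ℝ) < NA := by exact_mod_cast hNA0
  rw [Real.rpow_def_of_pos hNCR, Real.rpow_def_of_pos hNBR, Real.rpow_def_of_pos hNAR,
    Real.rpow_def_of_pos hbpos]
  nth_rewrite 1 [← Real.exp_log hbpos]
  rw [← Real.exp_add, ← Real.exp_add, ← Real.exp_add, Real.exp_lt_exp]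
  have e1 := mul_le_mul_of_nonneg_right h₁ ha₁
  have e2 := mul_le_mul_of_nonneg_right h₂ ha₂
  have e3 := mul_le_mul_of_nonneg_right h₃ ha₃
  have e4 := mul_pos hlogb (sub_pos.mpr hlin)
  nlinarith [e1, e2, e3, e4]

/-! ### Facts about Holder tuples -/

theorem one_div_toReal_lt_one {p : ℝ≥0∞} (hp : 1 < p) : 1 / p.toReal < 1 := by
  by_cases hT : p = ⊤
  · rw [hT]; simp
  · have h1 : 1 < p.toReal := by
      rw [← ENNReal.toReal_one]
      exact (ENNReal.toReal_lt_toReal ENNReal.one_ne_top hT).mpr hp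
    rw [div_lt_one (by linarith)]
    exact h1

theorem holder_facts {p₁ p₂ p₃ r : ℝ≥0∞} (h : IsHolderTuple p₁ p₂ p₃ r) :
    r ≠ 0 ∧ r ≠ ⊤ ∧ 1 / p₁.toReal < 1 ∧ 1 / p₂.toReal < 1 ∧ 1 / p₃.toReal < 1 ∧
      1 / r.toReal = 1 / p₁.toReal + 1 / p₂.toReal + 1 / p₃.toReal := by
  obtain ⟨h1, h2, h3, hr0, hrT, hsum⟩ := h
  refine ⟨hr0.ne', hrT.ne, one_div_toReal_lt_one h1, one_div_toReal_lt_one h2,
    one_div_toReal_lt_one h3, ?_⟩
  have e := congrArg ENNReal.toReal hsum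
  have n1 : p₁⁻¹ ≠ ⊤ := ENNReal.inv_ne_top.mpr (zero_lt_one.trans h1).ne'
  have n2 : p₂⁻¹ ≠ ⊤ := ENNReal.inv_ne_top.mpr (zero_lt_one.trans h2).ne'
  have n3 : p₃⁻¹ ≠ ⊤ := ENNReal.inv_ne_top.mpr (zero_lt_one.trans h3).ne'
  rw [ENNReal.toReal_add (ENNReal.add_ne_top.mpr ⟨n1, n2⟩) n3, ENNReal.toReal_add n1 n2,
    ENNReal.toReal_inv, ENNReal.toReal_inv, ENNReal.toReal_inv, ENNReal.toReal_inv] at e
  simp only [one_div]
  exact e

/-! ### The configurations -/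

/-- `(N_A, N_B, N_C; b) = (4, 4, 7; 16)`. -/
def cfgA : Finset (ℤ × ℤ) :=
  {(0, 0), (0, 1), (0, 2), (0, 3), (2, 0), (2, 1), (2, 2), (2, 3), (4, 0), (4, 1), (4, 2), (4, 3),
   (6, 0), (6, 1), (6, 2), (6, 3)}

/-- `(N_A, N_B, N_C; b) = (3, 5, 3; 9)`. -/
def cfgB : Finset (ℤ × ℤ) :=
  {(0, 0), (0, 2), (0, 4), (4, 2), (4, 4), (4, 6), (8, 4), (8, 6), (8, 8)}

/-- `(N_A, N_B, N_C; b) = (7, 4, 4; 16)`. -/
def cfgC : Finset (ℤ × ℤ) :=
  {(0, 0), (2, 0), (2, 1), (4, 0), (4, 1), (4, 2), (6, 0), (6, 1), (6, 2), (6, 3), (8, 1), (8, 2),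
   (8, 3), (10, 2), (10, 3), (12, 3)}

/-- `(N_A, N_B, N_C; b) = (5, 4, 4; 14)`. -/
def cfgD : Finset (ℤ × ℤ) :=
  {(0, 0), (0, 3), (6, 0), (6, 3), (6, 6), (12, 0), (12, 3), (12, 6), (12, 9), (18, 3), (18, 6),
   (18, 9), (24, 6), (24, 9)}

/-- `(N_A, N_B, N_C; b) = (6, 4, 5; 18)`. -/
def cfgE : Finset (ℤ × ℤ) :=
  {(0, 0), (0, 1), (2, 0), (2, 1), (2, 2), (4, 0), (4, 1), (4, 2), (4, 3), (6, 0), (6, 1), (6, 2),
   (6, 3), (8, 1), (8, 2), (8, 3), (10, 2), (10, 3)}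

/-- `(N_A, N_B, N_C; b) = (3, 10, 8; 24)`. -/
def cfgF : Finset (ℤ × ℤ) :=
  {(0, 0), (0, 1), (0, 2), (0, 3), (0, 4), (0, 5), (0, 6), (0, 7), (2, 1), (2, 2), (2, 3), (2, 4),
   (2, 5), (2, 6), (2, 7), (2, 8), (4, 2), (4, 3), (4, 4), (4, 5), (4, 6), (4, 7), (4, 8), (4, 9)}

section
set_option maxRecDepth 100000

theorem cfgA_inj : ∀ p ∈ cfgA, ∀ q ∈ cfgA,
    ((16 : ℕ) : ℤ) ∣ (3 * p.2 - 2 * p.1) - (3 * q.2 - 2 * q.1) → p = q := by decide
theorem cfgA_card : cfgA.card = 16 := by decide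
theorem cfgA_NC : (cfgA.image (fun p : ℤ × ℤ => 2 * p.2 - p.1)).card = 7 := by decide
theorem cfgA_NB : (cfgA.image Prod.snd).card = 4 := by decide
theorem cfgA_NA : (cfgA.image Prod.fst).card = 4 := by decide

theorem cfgB_inj : ∀ p ∈ cfgB, ∀ q ∈ cfgB,
    ((9 : ℕ) : ℤ) ∣ (3 * p.2 - 2 * p.1) - (3 * q.2 - 2 * q.1) → p = q := by decide
theorem cfgB_card : cfgB.card = 9 := by decide
theorem cfgB_NC : (cfgB.image (fun p : ℤ × ℤ => 2 * p.2 - p.1)).card = 3 := by decide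
theorem cfgB_NB : (cfgB.image Prod.snd).card = 5 := by decide
theorem cfgB_NA : (cfgB.image Prod.fst).card = 3 := by decide

theorem cfgC_inj : ∀ p ∈ cfgC, ∀ q ∈ cfgC,
    ((16 : ℕ) : ℤ) ∣ (3 * p.2 - 2 * p.1) - (3 * q.2 - 2 * q.1) → p = q := by decide
theorem cfgC_card : cfgC.card = 16 := by decide
theorem cfgC_NC : (cfgC.image (fun p : ℤ × ℤ => 2 * p.2 - p.1)).card = 4 := by decide
theorem cfgC_NB : (cfgC.image Prod.snd).card = 4 := by decide
theorem cfgC_NA : (cfgC.image Prod.fst).card = 7 := by decide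

theorem cfgD_inj : ∀ p ∈ cfgD, ∀ q ∈ cfgD,
    ((14 : ℕ) : ℤ) ∣ (3 * p.2 - 2 * p.1) - (3 * q.2 - 2 * q.1) → p = q := by decide
theorem cfgD_card : cfgD.card = 14 := by decide
theorem cfgD_NC : (cfgD.image (fun p : ℤ × ℤ => 2 * p.2 - p.1)).card = 4 := by decide
theorem cfgD_NB : (cfgD.image Prod.snd).card = 4 := by decide
theorem cfgD_NA : (cfgD.image Prod.fst).card = 5 := by decide

theorem cfgE_inj : ∀ p ∈ cfgE, ∀ q ∈ cfgE,
    ((18 : ℕ) : ℤ) ∣ (3 * p.2 - 2 * p.1) - (3 * q.2 - 2 * q.1) → p = q := by decide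
theorem cfgE_card : cfgE.card = 18 := by decide
theorem cfgE_NC : (cfgE.image (fun p : ℤ × ℤ => 2 * p.2 - p.1)).card = 5 := by decide
theorem cfgE_NB : (cfgE.image Prod.snd).card = 4 := by decide
theorem cfgE_NA : (cfgE.image Prod.fst).card = 6 := by decide

theorem cfgF_inj : ∀ p ∈ cfgF, ∀ q ∈ cfgF,
    ((24 : ℕ) : ℤ) ∣ (3 * p.2 - 2 * p.1) - (3 * q.2 - 2 * q.1) → p = q := by decide
theorem cfgF_card : cfgF.card = 24 := by decide
theorem cfgF_NC : (cfgF.image (fun p : ℤ × ℤ => 2 * p.2 - p.1)).card = 8 := by decide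
theorem cfgF_NB : (cfgF.image Prod.snd).card = 10 := by decide
theorem cfgF_NA : (cfgF.image Prod.fst).card = 3 := by decide

end

/-! ### Linear criteria from the configurations -/

section
set_option exponentiation.threshold 2000
variable {p₁ p₂ p₃ r : ℝ≥0∞}

theorem linA (hr0 : r ≠ 0) (hrT : r ≠ ⊤)
    (hs : 1 / r.toReal = 1 / p₁.toReal + 1 / p₂.toReal + 1 / p₃.toReal)
    (hlin : 1 < 149 / 500 * (1 / p₁.toReal) + 1 / 2 * (1 / p₂.toReal) + 1 / 2 * (1 / p₃.toReal)) :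
    ¬ BoundedAt p₁ p₂ p₃ r := by
  refine lin_criterion cfgA 16 (by norm_num) cfgA_inj cfgA_card 7 4 4
    cfgA_NC cfgA_NB cfgA_NA
    (by norm_num) (by norm_num) (by norm_num) (149 / 500) (1 / 2) (1 / 2) ?_ ?_ ?_
    p₁ p₂ p₃ r hr0 hrT hs hlin
  · have := log_le_of_pow_le (N := 7) (b := 16) (n := 500) (k := 351) (by norm_num) (by norm_num)
      (by norm_num)
    norm_num at this ⊢
    linarith
  · have := log_le_of_pow_le (N := 4) (b := 16) (n := 2) (k := 1) (by norm_num) (by norm_num)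
      (by norm_num)
    norm_num at this ⊢
    linarith
  · have := log_le_of_pow_le (N := 4) (b := 16) (n := 2) (k := 1) (by norm_num) (by norm_num)
      (by norm_num)
    norm_num at this ⊢
    linarith

theorem linB (hr0 : r ≠ 0) (hrT : r ≠ ⊤)
    (hs : 1 / r.toReal = 1 / p₁.toReal + 1 / p₂.toReal + 1 / p₃.toReal)
    (hlin : 1 < 1 / 2 * (1 / p₁.toReal) + 267 / 1000 * (1 / p₂.toReal) + 1 / 2 * (1 / p₃.toReal)) :
    ¬ BoundedAt p₁ p₂ p₃ r := by
  refine lin_criterion cfgB 9 (by norm_num) cfgB_inj cfgB_card 3 5 3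
    cfgB_NC cfgB_NB cfgB_NA
    (by norm_num) (by norm_num) (by norm_num) (1 / 2) (267 / 1000) (1 / 2) ?_ ?_ ?_
    p₁ p₂ p₃ r hr0 hrT hs hlin
  · have := log_le_of_pow_le (N := 3) (b := 9) (n := 2) (k := 1) (by norm_num) (by norm_num)
      (by norm_num)
    norm_num at this ⊢
    linarith
  · have := log_le_of_pow_le (N := 5) (b := 9) (n := 1000) (k := 733) (by norm_num) (by norm_num)
      (by norm_num)
    norm_num at this ⊢
    linarith
  · have := log_le_of_pow_le (N := 3) (b := 9) (n := 2) (k := 1) (by norm_num) (by norm_num)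
      (by norm_num)
    norm_num at this ⊢
    linarith

theorem linC (hr0 : r ≠ 0) (hrT : r ≠ ⊤)
    (hs : 1 / r.toReal = 1 / p₁.toReal + 1 / p₂.toReal + 1 / p₃.toReal)
    (hlin : 1 < 1 / 2 * (1 / p₁.toReal) + 1 / 2 * (1 / p₂.toReal) + 149 / 500 * (1 / p₃.toReal)) :
    ¬ BoundedAt p₁ p₂ p₃ r := by
  refine lin_criterion cfgC 16 (by norm_num) cfgC_inj cfgC_card 4 4 7
    cfgC_NC cfgC_NB cfgC_NA
    (by norm_num) (by norm_num) (by norm_num) (1 / 2) (1 / 2) (149 / 500) ?_ ?_ ?_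
    p₁ p₂ p₃ r hr0 hrT hs hlin
  · have := log_le_of_pow_le (N := 4) (b := 16) (n := 2) (k := 1) (by norm_num) (by norm_num)
      (by norm_num)
    norm_num at this ⊢
    linarith
  · have := log_le_of_pow_le (N := 4) (b := 16) (n := 2) (k := 1) (by norm_num) (by norm_num)
      (by norm_num)
    norm_num at this ⊢
    linarith
  · have := log_le_of_pow_le (N := 7) (b := 16) (n := 500) (k := 351) (by norm_num) (by norm_num)
      (by norm_num)
    norm_num at this ⊢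
    linarith

theorem linD (hr0 : r ≠ 0) (hrT : r ≠ ⊤)
    (hs : 1 / r.toReal = 1 / p₁.toReal + 1 / p₂.toReal + 1 / p₃.toReal)
    (hlin : 1 < 237 / 500 * (1 / p₁.toReal) + 237 / 500 * (1 / p₂.toReal) + 39 / 100 * (1 / p₃.toReal)) :
    ¬ BoundedAt p₁ p₂ p₃ r := by
  refine lin_criterion cfgD 14 (by norm_num) cfgD_inj cfgD_card 4 4 5
    cfgD_NC cfgD_NB cfgD_NA
    (by norm_num) (by norm_num) (by norm_num) (237 / 500) (237 / 500) (39 / 100) ?_ ?_ ?_
    p₁ p₂ p₃ r hr0 hrT hs hlin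
  · have := log_le_of_pow_le (N := 4) (b := 14) (n := 500) (k := 263) (by norm_num) (by norm_num)
      (by norm_num)
    norm_num at this ⊢
    linarith
  · have := log_le_of_pow_le (N := 4) (b := 14) (n := 500) (k := 263) (by norm_num) (by norm_num)
      (by norm_num)
    norm_num at this ⊢
    linarith
  · have := log_le_of_pow_le (N := 5) (b := 14) (n := 100) (k := 61) (by norm_num) (by norm_num)
      (by norm_num)
    norm_num at this ⊢
    linarith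

theorem linE (hr0 : r ≠ 0) (hrT : r ≠ ⊤)
    (hs : 1 / r.toReal = 1 / p₁.toReal + 1 / p₂.toReal + 1 / p₃.toReal)
    (hlin : 1 < 443 / 1000 * (1 / p₁.toReal) + 13 / 25 * (1 / p₂.toReal) + 19 / 50 * (1 / p₃.toReal)) :
    ¬ BoundedAt p₁ p₂ p₃ r := by
  refine lin_criterion cfgE 18 (by norm_num) cfgE_inj cfgE_card 5 4 6
    cfgE_NC cfgE_NB cfgE_NA
    (by norm_num) (by norm_num) (by norm_num) (443 / 1000) (13 / 25) (19 / 50) ?_ ?_ ?_
    p₁ p₂ p₃ r hr0 hrT hs hlin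
  · have := log_le_of_pow_le (N := 5) (b := 18) (n := 1000) (k := 557) (by norm_num) (by norm_num)
      (by norm_num)
    norm_num at this ⊢
    linarith
  · have := log_le_of_pow_le (N := 4) (b := 18) (n := 100) (k := 48) (by norm_num) (by norm_num)
      (by norm_num)
    norm_num at this ⊢
    linarith
  · have := log_le_of_pow_le (N := 6) (b := 18) (n := 100) (k := 62) (by norm_num) (by norm_num)
      (by norm_num)
    norm_num at this ⊢
    linarith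

theorem linF (hr0 : r ≠ 0) (hrT : r ≠ ⊤)
    (hs : 1 / r.toReal = 1 / p₁.toReal + 1 / p₂.toReal + 1 / p₃.toReal)
    (hlin : 1 < 69 / 200 * (1 / p₁.toReal) + 11 / 40 * (1 / p₂.toReal) + 327 / 500 * (1 / p₃.toReal)) :
    ¬ BoundedAt p₁ p₂ p₃ r := by
  refine lin_criterion cfgF 24 (by norm_num) cfgF_inj cfgF_card 8 10 3
    cfgF_NC cfgF_NB cfgF_NA
    (by norm_num) (by norm_num) (by norm_num) (69 / 200) (11 / 40) (327 / 500) ?_ ?_ ?_
    p₁ p₂ p₃ r hr0 hrT hs hlin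
  · have := log_le_of_pow_le (N := 8) (b := 24) (n := 1000) (k := 655) (by norm_num) (by norm_num)
      (by norm_num)
    norm_num at this ⊢
    linarith
  · have := log_le_of_pow_le (N := 10) (b := 24) (n := 1000) (k := 725) (by norm_num) (by norm_num)
      (by norm_num)
    norm_num at this ⊢
    linarith
  · have := log_le_of_pow_le (N := 3) (b := 24) (n := 1000) (k := 346) (by norm_num) (by norm_num)
      (by norm_num)
    norm_num at this ⊢
    linarith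

end

/-! ### The regions of unboundedness -/

/-- `T` is unbounded at every Holder tuple with `r ≤ 11/25`. -/
theorem unbounded_of_r_le {p₁ p₂ p₃ r : ℝ≥0∞} (h : IsHolderTuple p₁ p₂ p₃ r)
    (hr : r ≤ 11 / 25) : ¬ BoundedAt p₁ p₂ p₃ r := by
  obtain ⟨hr0, hrT, h1, h2, h3, hs⟩ := holder_facts h
  have hrpos : 0 < r.toReal := ENNReal.toReal_pos hr0 hrT
  have hr' : r.toReal ≤ 11 / 25 := by
    have e : ((11 : ℝ≥0∞) / 25).toReal = 11 / 25 := by
      rw [ENNReal.toReal_div]; norm_num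
    rw [← e]
    exact ENNReal.toReal_mono (ENNReal.div_ne_top (by norm_num) (by norm_num)) hr
  have hsr : 25 / 11 ≤ 1 / r.toReal := by
    rw [le_div_iff₀ hrpos]
    linarith
  have ha₁ : (0 : ℝ) ≤ 1 / p₁.toReal := by positivity
  have ha₂ : (0 : ℝ) ≤ 1 / p₂.toReal := by positivity
  have ha₃ : (0 : ℝ) ≤ 1 / p₃.toReal := by positivity
  by_cases c1 : 1 < 237 / 500 * (1 / p₁.toReal) + 237 / 500 * (1 / p₂.toReal)
      + 39 / 100 * (1 / p₃.toReal)
  · exact linD hr0 hrT hs c1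
  by_cases c2 : 1 < 443 / 1000 * (1 / p₁.toReal) + 13 / 25 * (1 / p₂.toReal)
      + 19 / 50 * (1 / p₃.toReal)
  · exact linE hr0 hrT hs c2
  by_cases c3 : 1 < 69 / 200 * (1 / p₁.toReal) + 11 / 40 * (1 / p₂.toReal)
      + 327 / 500 * (1 / p₃.toReal)
  · exact linF hr0 hrT hs c3
  exfalso
  rw [hs] at hsr
  linarith

/-- `T` is unbounded at every Holder tuple satisfying one of three explicit linear inequalities
in `(1/p₁, 1/p₂, 1/p₃)`. -/
theorem unbounded_of_lin {p₁ p₂ p₃ r : ℝ≥0∞} (h : IsHolderTuple p₁ p₂ p₃ r)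
    (hlin : 1 < 149 / 500 * p₁⁻¹.toReal + 1 / 2 * p₂⁻¹.toReal + 1 / 2 * p₃⁻¹.toReal ∨
      1 < 1 / 2 * p₁⁻¹.toReal + 267 / 1000 * p₂⁻¹.toReal + 1 / 2 * p₃⁻¹.toReal ∨
      1 < 1 / 2 * p₁⁻¹.toReal + 1 / 2 * p₂⁻¹.toReal + 149 / 500 * p₃⁻¹.toReal) :
    ¬ BoundedAt p₁ p₂ p₃ r := by
  obtain ⟨hr0, hrT, -, -, -, hs⟩ := holder_facts h
  simp only [ENNReal.toReal_inv] at hlin
  simp only [← one_div] at hlin
  rcases hlin with c | c | c
  · exact linA hr0 hrT hs c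
  · exact linB hr0 hrT hs c
  · exact linC hr0 hrT hs c

/-- The general criterion, for Holder tuples, with exponents written as `(1/p).toReal`. -/
theorem unbounded_of_config (G : Finset (ℤ × ℤ)) (b : ℕ) (hb : 2 ≤ b)
    (hinj : ∀ p ∈ G, ∀ q ∈ G, (b : ℤ) ∣ (3 * p.2 - 2 * p.1) - (3 * q.2 - 2 * q.1) → p = q)
    {p₁ p₂ p₃ r : ℝ≥0∞} (h : IsHolderTuple p₁ p₂ p₃ r)
    (hcrit : (b : ℝ) * ((G.image (fun p : ℤ × ℤ => 2 * p.2 - p.1)).card : ℝ) ^ p₁⁻¹.toReal
          * ((G.image Prod.snd).card : ℝ) ^ p₂⁻¹.toReal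
          * ((G.image Prod.fst).card : ℝ) ^ p₃⁻¹.toReal < (G.card : ℝ) ^ r⁻¹.toReal) :
    ¬ BoundedAt p₁ p₂ p₃ r := by
  obtain ⟨hr0, hrT, -, -, -, -⟩ := holder_facts h
  simp only [ENNReal.toReal_inv] at hcrit
  simp only [← one_div] at hcrit
  exact criterion G b hb hinj p₁ p₂ p₃ r hr0 hrT hcrit

/-- There are Holder tuples with `r` arbitrarily close to `1/2` at which `T` is unbounded. -/
theorem unbounded_near_half (ε : ℝ) (hε : 0 < ε) :
    ∃ p₁ p₂ p₃ r : ℝ≥0∞, IsHolderTuple p₁ p₂ p₃ r ∧ 1 / 2 - ε < r.toReal ∧ r.toReal < 1 / 2 ∧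
      ¬ BoundedAt p₁ p₂ p₃ r := by
  set η : ℝ := min ε (1 / 8) with hη
  have hη0 : 0 < η := lt_min hε (by norm_num)
  have hη1 : η ≤ 1 / 8 := min_le_right _ _
  have hη2 : η ≤ ε := min_le_left _ _
  have h1η : 0 < 1 - η := by linarith
  have hH : IsHolderTuple (ENNReal.ofReal (1 / (4 * η))) (ENNReal.ofReal (1 / (1 - η)))
      (ENNReal.ofReal (1 / (1 - η))) (ENNReal.ofReal (1 / (2 + 2 * η))) := by
    refine ⟨?_, ?_, ?_, ?_, ENNReal.ofReal_lt_top, ?_⟩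
    · rw [ENNReal.one_lt_ofReal, lt_div_iff₀ (by positivity)]; linarith
    · rw [ENNReal.one_lt_ofReal, lt_div_iff₀ h1η]; linarith
    · rw [ENNReal.one_lt_ofReal, lt_div_iff₀ h1η]; linarith
    · rw [ENNReal.ofReal_pos]; positivity
    · rw [← ENNReal.ofReal_inv_of_pos (by positivity), ← ENNReal.ofReal_inv_of_pos (by positivity),
        ← ENNReal.ofReal_inv_of_pos (by positivity),
        ← ENNReal.ofReal_add (by positivity) (by positivity),
        ← ENNReal.ofReal_add (by positivity) (by positivity)]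
      congr 1
      field_simp
      ring
  have hr : (ENNReal.ofReal (1 / (2 + 2 * η))).toReal = 1 / (2 + 2 * η) :=
    ENNReal.toReal_ofReal (by positivity)
  refine ⟨_, _, _, _, hH, ?_, ?_, ?_⟩
  · rw [hr, lt_div_iff₀ (by positivity)]
    nlinarith [mul_pos hε hη0]
  · rw [hr, div_lt_div_iff₀ (by positivity) (by norm_num)]
    linarith
  · apply unbounded_of_lin hH
    left
    simp only [ENNReal.toReal_inv]
    rw [ENNReal.toReal_ofReal (by positivity), ENNReal.toReal_ofReal (by positivity)]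
    have e1 : (1 / (4 * η))⁻¹ = 4 * η := by rw [one_div, inv_inv]
    have e2 : (1 / (1 - η))⁻¹ = 1 - η := by rw [one_div, inv_inv]
    rw [e1, e2]
    linarith

end Vale.Agent.H38.P141
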