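import Mathlib

/-!
# P141 : digit expansions of a finite configuration of four-term progressions

A pair `(u, v)` of integers stands for the progression `u, v, 2v-u, 3v-2u`.
-/

namespace Vale.Agent.H38.P141

/-- Base-`b` digit expansions of length `k` with digits in the configuration `G`. -/
def digitSet (G : Finset (ℤ × ℤ)) (b : ℤ) : ℕ → Finset (ℤ × ℤ)
  | 0 => {(0, 0)}
  | k + 1 => Finset.image₂ (fun p q : ℤ × ℤ => (p.1 + b * q.1, p.2 + b * q.2)) G (digitSet G b k)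

section
variable {G : Finset (ℤ × ℤ)} {b : ℤ}

theorem digit_step (hb : b ≠ 0)
    (hinj : ∀ p ∈ G, ∀ q ∈ G, b ∣ (3 * p.2 - 2 * p.1) - (3 * q.2 - 2 * q.1) → p = q)
    {p p' : ℤ × ℤ} (hp : p ∈ G) (hp' : p' ∈ G) {q q' : ℤ × ℤ}
    (h : 3 * (p.2 + b * q.2) - 2 * (p.1 + b * q.1) = 3 * (p'.2 + b * q'.2) - 2 * (p'.1 + b * q'.1)) :
    p = p' ∧ 3 * q.2 - 2 * q.1 = 3 * q'.2 - 2 * q'.1 := by
  have h1 : p = p' := by
    apply hinj p hp p' hp'
    refine ⟨(3 * q'.2 - 2 * q'.1) - (3 * q.2 - 2 * q.1), ?_⟩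
    linarith
  subst h1
  refine ⟨rfl, ?_⟩
  have h2 : b * (3 * q.2 - 2 * q.1) = b * (3 * q'.2 - 2 * q'.1) := by linarith
  exact mul_left_cancel₀ hb h2

theorem digit_inj (hb : b ≠ 0)
    (hinj : ∀ p ∈ G, ∀ q ∈ G, b ∣ (3 * p.2 - 2 * p.1) - (3 * q.2 - 2 * q.1) → p = q) :
    ∀ k : ℕ, ∀ P ∈ digitSet G b k, ∀ Q ∈ digitSet G b k,
      3 * P.2 - 2 * P.1 = 3 * Q.2 - 2 * Q.1 → P = Q := by
  intro k
  induction k with
  | zero =>
    intro P hP Q hQ _
    simp only [digitSet, Finset.mem_singleton] at hP hQ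
    rw [hP, hQ]
  | succ k ih =>
    intro P hP Q hQ h
    simp only [digitSet, Finset.mem_image₂] at hP hQ
    obtain ⟨p, hp, q, hq, rfl⟩ := hP
    obtain ⟨p', hp', q', hq', rfl⟩ := hQ
    obtain ⟨h1, h2⟩ := digit_step hb hinj hp hp' h
    have h3 := ih q hq q' hq' h2
    rw [h1, h3]

theorem digit_card (hb : b ≠ 0)
    (hinj : ∀ p ∈ G, ∀ q ∈ G, b ∣ (3 * p.2 - 2 * p.1) - (3 * q.2 - 2 * q.1) → p = q) :
    ∀ k : ℕ, (digitSet G b k).card = G.card ^ k := by
  intro k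
  induction k with
  | zero => simp [digitSet]
  | succ k ih =>
    rw [digitSet, Finset.card_image₂_iff.mpr, ih, pow_succ, mul_comm]
    rintro ⟨p, q⟩ hpq ⟨p', q'⟩ hpq' h
    simp only [Set.mem_prod, Finset.mem_coe] at hpq hpq'
    simp only [Prod.mk.injEq] at h
    have hd : 3 * (p.2 + b * q.2) - 2 * (p.1 + b * q.1)
        = 3 * (p'.2 + b * q'.2) - 2 * (p'.1 + b * q'.1) := by
      rw [h.1, h.2]
    obtain ⟨h1, h2⟩ := digit_step hb hinj hpq.1 hpq'.1 hd
    have h3 := digit_inj hb hinj k q hpq.2 q' hpq'.2 h2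
    rw [h1, h3]

theorem digit_proj_card_le (L : ℤ × ℤ → ℤ)
    (hL : ∀ p q : ℤ × ℤ, L (p.1 + b * q.1, p.2 + b * q.2) = L p + b * L q) :
    ∀ k : ℕ, ((digitSet G b k).image L).card ≤ ((G.image L).card) ^ k := by
  intro k
  induction k with
  | zero => simp [digitSet]
  | succ k ih =>
    have hsub : (digitSet G b (k + 1)).image L ⊆
        Finset.image₂ (fun x y : ℤ => x + b * y) (G.image L) ((digitSet G b k).image L) := by
      intro z hz
      simp only [digitSet, Finset.mem_image, Finset.mem_image₂] at hz ⊢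
      obtain ⟨P, ⟨p, hp, q, hq, rfl⟩, rfl⟩ := hz
      exact ⟨L p, ⟨p, hp, rfl⟩, L q, ⟨q, hq, rfl⟩, (hL p q).symm⟩
    calc ((digitSet G b (k + 1)).image L).card
        ≤ (Finset.image₂ (fun x y : ℤ => x + b * y) (G.image L)
            ((digitSet G b k).image L)).card := Finset.card_le_card hsub
      _ ≤ (G.image L).card * ((digitSet G b k).image L).card := Finset.card_image₂_le _ _ _
      _ ≤ (G.image L).card * (G.image L).card ^ k := Nat.mul_le_mul_left _ ih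
      _ = (G.image L).card ^ (k + 1) := by rw [pow_succ, mul_comm]

theorem digit_bound (hb : 2 ≤ b) (c : ℤ) (hc : ∀ p ∈ G, |p.1| ≤ c ∧ |p.2| ≤ c) :
    ∀ k : ℕ, ∀ P ∈ digitSet G b k, |P.1| ≤ c * (b ^ k - 1) ∧ |P.2| ≤ c * (b ^ k - 1) := by
  intro k
  induction k with
  | zero =>
    intro P hP
    simp only [digitSet, Finset.mem_singleton] at hP
    rw [hP]; simp
  | succ k ih =>
    intro P hP
    simp only [digitSet, Finset.mem_image₂] at hP
    obtain ⟨p, hp, q, hq, rfl⟩ := hP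
    obtain ⟨hp1, hp2⟩ := hc p hp
    obtain ⟨hq1, hq2⟩ := ih q hq
    have hc0 : 0 ≤ c := le_trans (abs_nonneg _) hp1
    have hb0 : 0 ≤ b := by linarith
    have key : c + b * (c * (b ^ k - 1)) ≤ c * (b ^ (k + 1) - 1) := by
      have : c * (b ^ (k + 1) - 1) - (c + b * (c * (b ^ k - 1))) = c * (b - 2) := by ring
      nlinarith [mul_nonneg hc0 (sub_nonneg.mpr hb)]
    constructor
    · calc |p.1 + b * q.1| ≤ |p.1| + |b * q.1| := abs_add_le _ _
        _ = |p.1| + b * |q.1| := by rw [abs_mul, abs_of_nonneg hb0]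
        _ ≤ c + b * (c * (b ^ k - 1)) := add_le_add hp1 (mul_le_mul_of_nonneg_left hq1 hb0)
        _ ≤ c * (b ^ (k + 1) - 1) := key
    · calc |p.2 + b * q.2| ≤ |p.2| + |b * q.2| := abs_add_le _ _
        _ = |p.2| + b * |q.2| := by rw [abs_mul, abs_of_nonneg hb0]
        _ ≤ c + b * (c * (b ^ k - 1)) := add_le_add hp2 (mul_le_mul_of_nonneg_left hq2 hb0)
        _ ≤ c * (b ^ (k + 1) - 1) := key

theorem exists_bound (G : Finset (ℤ × ℤ)) : ∃ c : ℕ, ∀ p ∈ G, |p.1| ≤ (c : ℤ) ∧ |p.2| ≤ (c : ℤ) := by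
  refine ⟨G.sup (fun p => max p.1.natAbs p.2.natAbs), ?_⟩
  intro p hp
  have h := Finset.le_sup (f := fun p : ℤ × ℤ => max p.1.natAbs p.2.natAbs) hp
  have h1 : p.1.natAbs ≤ G.sup (fun p => max p.1.natAbs p.2.natAbs) :=
    le_trans (le_max_left _ _) h
  have h2 : p.2.natAbs ≤ G.sup (fun p => max p.1.natAbs p.2.natAbs) :=
    le_trans (le_max_right _ _) h
  constructor
  · rw [Int.abs_eq_natAbs]; exact_mod_cast h1
  · rw [Int.abs_eq_natAbs]; exact_mod_cast h2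

end

end Vale.Agent.H38.P141
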