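import Vale.Agent.H38.P141Bump

/-!
# P141 : lower bound for the trilinear Hilbert transform of plateau functions
-/

namespace Vale.Agent.H38.P141

open MeasureTheory Filter Topology Metric
open scoped ENNReal NNReal

/-- The real integrand of the trilinear Hilbert transform of three plateau functions. -/
noncomputable def hker (A B C : Finset ℤ) (x t : ℝ) : ℝ :=
  plateau C (x - t) * plateau B (x - 2 * t) * plateau A (x - 3 * t) / t

section
variable {A B C : Finset ℤ} {M : ℝ}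

theorem hker_support (hsep : ∀ w ∈ C, ∀ v ∈ B, (1 : ℝ) ≤ (w : ℝ) - v ∧ (w : ℝ) - v ≤ M)
    {x t : ℝ} (h : hker A B C x t ≠ 0) : 1 / 2 < t ∧ t < M + 1 / 2 := by
  have hC : plateau C (x - t) ≠ 0 := by
    intro h0; apply h; simp [hker, h0]
  have hB : plateau B (x - 2 * t) ≠ 0 := by
    intro h0; apply h; simp [hker, h0]
  obtain ⟨w, hw, hwlt⟩ := plateau_ne_zero hC
  obtain ⟨v, hv, hvlt⟩ := plateau_ne_zero hB
  obtain ⟨h1, h2⟩ := hsep w hw v hv
  rw [abs_lt] at hwlt hvlt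
  constructor <;> linarith [hwlt.1, hwlt.2, hvlt.1, hvlt.2]

theorem hker_nonneg (hsep : ∀ w ∈ C, ∀ v ∈ B, (1 : ℝ) ≤ (w : ℝ) - v ∧ (w : ℝ) - v ≤ M)
    (x t : ℝ) : 0 ≤ hker A B C x t := by
  by_cases h : hker A B C x t = 0
  · rw [h]
  · have := hker_support hsep h
    unfold hker
    apply div_nonneg
      (mul_nonneg (mul_nonneg (plateau_nonneg _ _) (plateau_nonneg _ _)) (plateau_nonneg _ _))
    linarith [this.1]

theorem hker_le_two (hsep : ∀ w ∈ C, ∀ v ∈ B, (1 : ℝ) ≤ (w : ℝ) - v ∧ (w : ℝ) - v ≤ M)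
    (x t : ℝ) : hker A B C x t ≤ 2 := by
  by_cases h : hker A B C x t = 0
  · rw [h]; norm_num
  · have ht := hker_support hsep h
    have htpos : 0 < t := by linarith [ht.1]
    unfold hker
    rw [div_le_iff₀ htpos]
    have h1 : plateau C (x - t) * plateau B (x - 2 * t) * plateau A (x - 3 * t) ≤ 1 := by
      have a1 := plateau_le_one C (x - t)
      have a2 := plateau_le_one B (x - 2 * t)
      have a3 := plateau_le_one A (x - 3 * t)
      have b1 := plateau_nonneg C (x - t)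
      have b2 := plateau_nonneg B (x - 2 * t)
      have b3 := plateau_nonneg A (x - 3 * t)
      calc plateau C (x - t) * plateau B (x - 2 * t) * plateau A (x - 3 * t)
          ≤ 1 * 1 * 1 := by
            apply mul_le_mul (mul_le_mul a1 a2 b2 zero_le_one) a3 b3 (by norm_num)
        _ = 1 := by norm_num
    linarith [ht.1]

theorem hker_measurable (x : ℝ) : Measurable (fun t : ℝ => hker A B C x t) := by
  unfold hker
  have hC : Measurable (fun t : ℝ => plateau C (x - t)) :=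
    ((plateau_continuous C).comp (continuous_const.sub continuous_id)).measurable
  have hB : Measurable (fun t : ℝ => plateau B (x - 2 * t)) :=
    ((plateau_continuous B).comp (continuous_const.sub (continuous_const.mul continuous_id))).measurable
  have hA : Measurable (fun t : ℝ => plateau A (x - 3 * t)) :=
    ((plateau_continuous A).comp (continuous_const.sub (continuous_const.mul continuous_id))).measurable
  exact ((hC.mul hB).mul hA).div measurable_id

theorem hker_integrable (hsep : ∀ w ∈ C, ∀ v ∈ B, (1 : ℝ) ≤ (w : ℝ) - v ∧ (w : ℝ) - v ≤ M)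
    (x : ℝ) : Integrable (fun t : ℝ => hker A B C x t) := by
  have hg : Integrable ((Set.Icc (1 / 2 : ℝ) (M + 1 / 2)).indicator (fun _ : ℝ => (2 : ℝ))) := by
    rw [integrable_indicator_iff measurableSet_Icc]
    exact integrableOn_const (by simp)
  refine Integrable.mono' hg (hker_measurable x).aestronglyMeasurable (ae_of_all _ ?_)
  intro t
  rw [Real.norm_eq_abs, abs_of_nonneg (hker_nonneg hsep x t)]
  by_cases h : hker A B C x t = 0
  · rw [h]; exact Set.indicator_nonneg (fun _ _ => by norm_num) t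
  · have ht := hker_support hsep h
    rw [Set.indicator_of_mem (Set.mem_Icc.mpr ⟨ht.1.le, ht.2.le⟩)]
    exact hker_le_two hsep x t

theorem truncTHT_fS (hsep : ∀ w ∈ C, ∀ v ∈ B, (1 : ℝ) ≤ (w : ℝ) - v ∧ (w : ℝ) - v ≤ M)
    {ε R : ℝ} (hε : ε ≤ 1 / 2) (hR : M + 1 / 2 ≤ R) (x : ℝ) :
    truncTHT (fS C) (fS B) (fS A) ε R x = ((∫ t, hker A B C x t : ℝ) : ℂ) := by
  have e : ∀ t : ℝ, (fS C) (x - t) * (fS B) (x - 2 * t) * (fS A) (x - 3 * t) / (t : ℂ)
      = ((hker A B C x t : ℝ) : ℂ) := by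
    intro t
    simp [fS_apply, hker]
  unfold truncTHT
  rw [← integral_complex_ofReal, setIntegral_eq_integral_of_forall_compl_eq_zero]
  · exact integral_congr_ae (ae_of_all _ e)
  · intro t ht
    have h0 : hker A B C x t = 0 := by
      by_contra h
      obtain ⟨h1, h2⟩ := hker_support hsep h
      apply ht
      simp only [Set.mem_ofPred_eq]
      rw [abs_of_pos (by linarith)]
      constructor <;> linarith
    rw [e t, h0]; simp

theorem triHilbert_fS (hsep : ∀ w ∈ C, ∀ v ∈ B, (1 : ℝ) ≤ (w : ℝ) - v ∧ (w : ℝ) - v ≤ M)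
    (x : ℝ) :
    triHilbert (fS C) (fS B) (fS A) x = ((∫ t, hker A B C x t : ℝ) : ℂ) := by
  unfold triHilbert
  apply Tendsto.limUnder_eq
  apply tendsto_const_nhds.congr'
  have h1 : ∀ᶠ ε in 𝓝[>] (0 : ℝ), ε ≤ 1 / 2 :=
    eventually_nhdsWithin_of_eventually_nhds (eventually_le_nhds (by norm_num))
  have h2 : ∀ᶠ R in (atTop : Filter ℝ), M + 1 / 2 ≤ R := eventually_ge_atTop _
  filter_upwards [h1.prod_mk h2] with q hq
  exact (truncTHT_fS hsep hq.1 hq.2 x).symm

theorem triHilbert_lower (hsep : ∀ w ∈ C, ∀ v ∈ B, (1 : ℝ) ≤ (w : ℝ) - v ∧ (w : ℝ) - v ≤ M)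
    {u v w d : ℤ} (hu : u ∈ A) (hv : v ∈ B) (hw : w ∈ C)
    (h1 : v - u = w - v) (h2 : w - v = d - w) {x : ℝ} (hx : |x - (d : ℝ)| ≤ 1 / 32) :
    1 / (16 * (M + 1)) ≤ ‖triHilbert (fS C) (fS B) (fS A) x‖ := by
  rw [triHilbert_fS hsep, Complex.norm_real, Real.norm_eq_abs]
  refine le_trans ?_ (le_abs_self _)
  have ht₀ : (1 : ℝ) ≤ (w : ℝ) - v ∧ (w : ℝ) - v ≤ M := hsep w hw v hv
  have h1' : (v : ℝ) - u = (w : ℝ) - v := by exact_mod_cast h1
  have h2' : (w : ℝ) - v = (d : ℝ) - w := by exact_mod_cast h2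
  have hM1 : 0 < M + 1 := by linarith [ht₀.1, ht₀.2]
  rw [abs_le] at hx
  have key : ∀ t, (Set.Icc ((w : ℝ) - v - 1 / 32) ((w : ℝ) - v + 1 / 32)).indicator
      (fun _ => 1 / (M + 1)) t ≤ hker A B C x t := by
    intro t
    by_cases ht : t ∈ Set.Icc ((w : ℝ) - v - 1 / 32) ((w : ℝ) - v + 1 / 32)
    · rw [Set.indicator_of_mem ht]
      rw [Set.mem_Icc] at ht
      have e1 : plateau C (x - t) = 1 := by
        apply plateau_eq_one hw
        rw [abs_le]; constructor <;> linarith [ht.1, ht.2, hx.1, hx.2]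
      have e2 : plateau B (x - 2 * t) = 1 := by
        apply plateau_eq_one hv
        rw [abs_le]; constructor <;> linarith [ht.1, ht.2, hx.1, hx.2]
      have e3 : plateau A (x - 3 * t) = 1 := by
        apply plateau_eq_one hu
        rw [abs_le]; constructor <;> linarith [ht.1, ht.2, hx.1, hx.2]
      unfold hker
      rw [e1, e2, e3]
      have htpos : 0 < t := by linarith [ht.1, ht₀.1]
      rw [one_mul, one_mul]
      apply one_div_le_one_div_of_le htpos
      linarith [ht.2, ht₀.2]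
    · rw [Set.indicator_of_notMem ht]; exact hker_nonneg hsep x t
  have hint : ∫ t, (Set.Icc ((w : ℝ) - v - 1 / 32) ((w : ℝ) - v + 1 / 32)).indicator
      (fun _ => 1 / (M + 1)) t = 1 / (16 * (M + 1)) := by
    rw [integral_indicator_const _ measurableSet_Icc, Real.volume_real_Icc_of_le (by linarith)]
    rw [smul_eq_mul]
    field_simp
    ring
  rw [← hint]
  apply integral_mono_of_nonneg (ae_of_all _ _) (hker_integrable hsep x) (ae_of_all _ key)
  intro t
  exact Set.indicator_nonneg (fun _ _ => by positivity) t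

/-- The `L^r` lower bound: the transform is at least `1/(16(M+1))` on intervals of length `1/16`
around each output point. -/
theorem eLpNorm_triHilbert_lower
    (hsep : ∀ w ∈ C, ∀ v ∈ B, (1 : ℝ) ≤ (w : ℝ) - v ∧ (w : ℝ) - v ≤ M) (hM : 1 ≤ M)
    (Dset : Finset ℤ)
    (hAP : ∀ d ∈ Dset, ∃ u ∈ A, ∃ v ∈ B, ∃ w ∈ C, v - u = w - v ∧ w - v = d - w)
    (r : ℝ≥0∞) (hr0 : r ≠ 0) (hrT : r ≠ ⊤) :
    ENNReal.ofReal (((Dset.card : ℝ) / 16) ^ (1 / r.toReal) * (1 / (16 * (M + 1))))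
      ≤ eLpNorm (triHilbert (fS C) (fS B) (fS A)) r volume := by
  have hρ : 0 < r.toReal := ENNReal.toReal_pos hr0 hrT
  have hM1 : 0 < M + 1 := by linarith
  set c₀ : ℝ := 1 / (16 * (M + 1)) with hc₀
  have hc₀pos : 0 < c₀ := by positivity
  set S : Set ℝ := ⋃ d ∈ Dset, Set.Icc ((d : ℝ) - 1 / 32) ((d : ℝ) + 1 / 32) with hS
  have hSmeas : MeasurableSet S :=
    Finset.measurableSet_biUnion _ fun d _ => measurableSet_Icc
  have hvol : volume S = ENNReal.ofReal ((Dset.card : ℝ) / 16) := by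
    rw [hS, measure_biUnion_finset]
    · have : ∀ d ∈ Dset, volume (Set.Icc ((d : ℝ) - 1 / 32) ((d : ℝ) + 1 / 32))
          = ENNReal.ofReal (1 / 16) := by
        intro d _
        rw [Real.volume_Icc]
        congr 1
        ring
      rw [Finset.sum_congr rfl this, Finset.sum_const, nsmul_eq_mul,
        ← ENNReal.ofReal_natCast, ← ENNReal.ofReal_mul (Nat.cast_nonneg _)]
      congr 1
      ring
    · intro d hd d' hd' hne
      rw [Function.onFun, Set.disjoint_left]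
      intro x hx hx'
      rw [Set.mem_Icc] at hx hx'
      have h1 : (1 : ℝ) ≤ |(d : ℝ) - (d' : ℝ)| := by
        have : (1 : ℤ) ≤ |d - d'| := Int.one_le_abs (sub_ne_zero.mpr hne)
        exact_mod_cast this
      have h2 : |(d : ℝ) - (d' : ℝ)| ≤ 1 / 16 := by
        rw [abs_le]; constructor <;> linarith [hx.1, hx.2, hx'.1, hx'.2]
      linarith
    · intro d _
      exact measurableSet_Icc
  have hpt : ∀ x ∈ S, ENNReal.ofReal c₀ ^ r.toReal
      ≤ ‖triHilbert (fS C) (fS B) (fS A) x‖ₑ ^ r.toReal := by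
    intro x hx
    simp only [hS, Set.mem_iUnion, Set.mem_Icc] at hx
    obtain ⟨d, hd, hx1, hx2⟩ := hx
    obtain ⟨u, hu, v, hv, w, hw, h1, h2⟩ := hAP d hd
    have hlow := triHilbert_lower hsep hu hv hw h1 h2 (x := x)
      (by rw [abs_le]; constructor <;> linarith)
    apply ENNReal.rpow_le_rpow _ hρ.le
    rw [← ofReal_norm]
    exact ENNReal.ofReal_le_ofReal hlow
  have hI : ENNReal.ofReal c₀ ^ r.toReal * ENNReal.ofReal ((Dset.card : ℝ) / 16)
      ≤ ∫⁻ x, ‖triHilbert (fS C) (fS B) (fS A) x‖ₑ ^ r.toReal := by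
    calc ENNReal.ofReal c₀ ^ r.toReal * ENNReal.ofReal ((Dset.card : ℝ) / 16)
        = ∫⁻ _ in S, ENNReal.ofReal c₀ ^ r.toReal := by
          rw [setLIntegral_const, hvol]
      _ ≤ ∫⁻ x in S, ‖triHilbert (fS C) (fS B) (fS A) x‖ₑ ^ r.toReal :=
          setLIntegral_mono' hSmeas hpt
      _ ≤ ∫⁻ x, ‖triHilbert (fS C) (fS B) (fS A) x‖ₑ ^ r.toReal :=
          setLIntegral_le_lintegral _ _
  rw [eLpNorm_eq_lintegral_rpow_enorm_toReal hr0 hrT]
  have h1r : (0 : ℝ) ≤ 1 / r.toReal := by positivity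
  have hD : (0 : ℝ) ≤ (Dset.card : ℝ) / 16 := by positivity
  calc ENNReal.ofReal (((Dset.card : ℝ) / 16) ^ (1 / r.toReal) * c₀)
      = (ENNReal.ofReal c₀ ^ r.toReal * ENNReal.ofReal ((Dset.card : ℝ) / 16)) ^ (1 / r.toReal) := by
        rw [ENNReal.mul_rpow_of_nonneg _ _ h1r, ← ENNReal.rpow_mul,
          mul_one_div_cancel hρ.ne', ENNReal.rpow_one,
          ENNReal.ofReal_rpow_of_nonneg hD h1r, mul_comm,
          ENNReal.ofReal_mul hc₀pos.le]
    _ ≤ (∫⁻ x, ‖triHilbert (fS C) (fS B) (fS A) x‖ₑ ^ r.toReal) ^ (1 / r.toReal) :=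
        ENNReal.rpow_le_rpow hI h1r

/-- The key inequality: a bound for `T` at exponents `(p₁,p₂,p₃,r)` forces an inequality between
the sizes of any integer configuration of four-term progressions. -/
theorem key_ineq (p₁ p₂ p₃ r : ℝ≥0∞) (hr0 : r ≠ 0) (hrT : r ≠ ⊤) (Cst : ℝ≥0)
    (hbdd : ∀ f₁ f₂ f₃ : SchwartzMap ℝ ℂ,
      eLpNorm (triHilbert f₁ f₂ f₃) r volume ≤
        Cst * eLpNorm f₁ p₁ volume * eLpNorm f₂ p₂ volume * eLpNorm f₃ p₃ volume)
    (hsep : ∀ w ∈ C, ∀ v ∈ B, (1 : ℝ) ≤ (w : ℝ) - v ∧ (w : ℝ) - v ≤ M) (hM : 1 ≤ M)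
    (Dset : Finset ℤ)
    (hAP : ∀ d ∈ Dset, ∃ u ∈ A, ∃ v ∈ B, ∃ w ∈ C, v - u = w - v ∧ w - v = d - w) :
    ((Dset.card : ℝ) / 16) ^ (1 / r.toReal) * (1 / (16 * (M + 1)))
      ≤ Cst * (C.card : ℝ) ^ (1 / p₁.toReal) * (B.card : ℝ) ^ (1 / p₂.toReal)
        * (A.card : ℝ) ^ (1 / p₃.toReal) := by
  have h1 := eLpNorm_triHilbert_lower hsep hM Dset hAP r hr0 hrT
  have h2 := hbdd (fS C) (fS B) (fS A)
  have e : ∀ (n : ℕ) (p : ℝ≥0∞), (n : ℝ≥0∞) ^ (1 / p.toReal)
      = ENNReal.ofReal ((n : ℝ) ^ (1 / p.toReal)) := by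
    intro n p
    rw [← ENNReal.ofReal_natCast, ENNReal.ofReal_rpow_of_nonneg (Nat.cast_nonneg n) (by positivity)]
  have h3 : (Cst : ℝ≥0∞) * eLpNorm (fS C) p₁ volume * eLpNorm (fS B) p₂ volume
      * eLpNorm (fS A) p₃ volume
      ≤ ENNReal.ofReal (Cst * (C.card : ℝ) ^ (1 / p₁.toReal) * (B.card : ℝ) ^ (1 / p₂.toReal)
        * (A.card : ℝ) ^ (1 / p₃.toReal)) := by
    rw [ENNReal.ofReal_mul (by positivity), ENNReal.ofReal_mul (by positivity),
      ENNReal.ofReal_mul (by positivity), ENNReal.ofReal_coe_nnreal, ← e, ← e, ← e]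
    exact mul_le_mul' (mul_le_mul' (mul_le_mul' le_rfl (eLpNorm_fS_le C p₁)) (eLpNorm_fS_le B p₂))
      (eLpNorm_fS_le A p₃)
  have h4 := (h1.trans h2).trans h3
  rwa [ENNReal.ofReal_le_ofReal_iff (by positivity)] at h4

end

end Vale.Agent.H38.P141
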