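import Vale.Agent.H38.P141Lower
import Vale.Agent.H38.P141Digit

/-!
# P141 : the unboundedness criterion
-/

namespace Vale.Agent.H38.P141

open MeasureTheory Filter Topology
open scoped ENNReal NNReal

theorem pow_rpow_comm {x : ℝ} (hx : 0 ≤ x) (k : ℕ) (a : ℝ) : (x ^ k) ^ a = (x ^ a) ^ k := by
  rw [← Real.rpow_natCast, ← Real.rpow_mul hx, mul_comm, Real.rpow_mul hx, Real.rpow_natCast]

/-- Consequence of boundedness for the `k`-th digit power of a configuration. -/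
theorem digit_ineq (G : Finset (ℤ × ℤ)) (b : ℕ) (hb : 2 ≤ b)
    (hinj : ∀ p ∈ G, ∀ q ∈ G, (b : ℤ) ∣ (3 * p.2 - 2 * p.1) - (3 * q.2 - 2 * q.1) → p = q)
    (p₁ p₂ p₃ r : ℝ≥0∞) (hr0 : r ≠ 0) (hrT : r ≠ ⊤) (Cst : ℝ≥0)
    (hbdd : ∀ f₁ f₂ f₃ : SchwartzMap ℝ ℂ,
      eLpNorm (triHilbert f₁ f₂ f₃) r volume ≤
        Cst * eLpNorm f₁ p₁ volume * eLpNorm f₂ p₂ volume * eLpNorm f₃ p₃ volume)
    (c : ℕ) (hc : ∀ p ∈ G, |p.1| ≤ (c : ℤ) ∧ |p.2| ≤ (c : ℤ)) (k : ℕ) :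
    ((G.card : ℝ) ^ (1 / r.toReal)) ^ k ≤
      (16 ^ (1 / r.toReal) * (16 * (8 * c + 2)) * Cst) *
        ((b : ℝ) * ((G.image (fun p : ℤ × ℤ => 2 * p.2 - p.1)).card : ℝ) ^ (1 / p₁.toReal)
          * ((G.image Prod.snd).card : ℝ) ^ (1 / p₂.toReal)
          * ((G.image Prod.fst).card : ℝ) ^ (1 / p₃.toReal)) ^ k := by
  have hbZ : (2 : ℤ) ≤ (b : ℤ) := by exact_mod_cast hb
  have hb0 : (b : ℤ) ≠ 0 := by linarith
  have hbk : (1 : ℤ) ≤ (b : ℤ) ^ k := one_le_pow₀ (by linarith)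
  have hc0 : (0 : ℤ) ≤ (c : ℤ) := Int.natCast_nonneg c
  set S := digitSet G (b : ℤ) k with hSdef
  set σ : ℤ := 4 * c * (b : ℤ) ^ k + 1 with hσ
  set A := S.image Prod.fst with hA
  set B := S.image (fun P : ℤ × ℤ => P.2 + σ) with hB
  set C := S.image (fun P : ℤ × ℤ => 2 * P.2 - P.1 + 2 * σ) with hC
  set Dset := S.image (fun P : ℤ × ℤ => 3 * P.2 - 2 * P.1 + 3 * σ) with hD
  set M : ℝ := 8 * c * (b : ℝ) ^ k + 1 with hMdef
  have hbound : ∀ P ∈ S, |P.1| ≤ (c : ℤ) * (b : ℤ) ^ k ∧ |P.2| ≤ (c : ℤ) * (b : ℤ) ^ k := by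
    intro P hP
    obtain ⟨h1, h2⟩ := digit_bound hbZ (c : ℤ) hc k P hP
    have : (c : ℤ) * ((b : ℤ) ^ k - 1) ≤ (c : ℤ) * (b : ℤ) ^ k :=
      mul_le_mul_of_nonneg_left (by linarith) hc0
    exact ⟨h1.trans this, h2.trans this⟩
  have hsep : ∀ w ∈ C, ∀ v ∈ B, (1 : ℝ) ≤ (w : ℝ) - v ∧ (w : ℝ) - v ≤ M := by
    intro w hw v hv
    simp only [hC, hB, Finset.mem_image] at hw hv
    obtain ⟨P, hP, rfl⟩ := hw
    obtain ⟨Q, hQ, rfl⟩ := hv
    obtain ⟨hP1, hP2⟩ := hbound P hP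
    obtain ⟨hQ1, hQ2⟩ := hbound Q hQ
    rw [abs_le] at hP1 hP2 hQ1 hQ2
    have i1 : (1 : ℤ) ≤ (2 * P.2 - P.1 + 2 * σ) - (Q.2 + σ) := by
      rw [hσ]; linarith [hP1.1, hP1.2, hP2.1, hP2.2, hQ2.1, hQ2.2]
    have i2 : (2 * P.2 - P.1 + 2 * σ) - (Q.2 + σ) ≤ 8 * c * (b : ℤ) ^ k + 1 := by
      rw [hσ]; linarith [hP1.1, hP1.2, hP2.1, hP2.2, hQ2.1, hQ2.2]
    constructor
    · exact_mod_cast i1
    · rw [hMdef]; exact_mod_cast i2
  have hbkR : (1 : ℝ) ≤ (b : ℝ) ^ k := one_le_pow₀ (by exact_mod_cast (by linarith : 1 ≤ b))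
  have hM : 1 ≤ M := by
    rw [hMdef]
    have : (0 : ℝ) ≤ 8 * c * (b : ℝ) ^ k := by positivity
    linarith
  have hAP : ∀ d ∈ Dset, ∃ u ∈ A, ∃ v ∈ B, ∃ w ∈ C, v - u = w - v ∧ w - v = d - w := by
    intro d hd
    simp only [hD, Finset.mem_image] at hd
    obtain ⟨P, hP, rfl⟩ := hd
    refine ⟨P.1, Finset.mem_image_of_mem _ hP, P.2 + σ, Finset.mem_image_of_mem _ hP,
      2 * P.2 - P.1 + 2 * σ, Finset.mem_image_of_mem _ hP, by ring, by ring⟩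
  have hDcard : Dset.card = G.card ^ k := by
    rw [hD, Finset.card_image_of_injOn, hSdef, digit_card hb0 hinj k]
    intro P hP Q hQ h
    exact digit_inj hb0 hinj k P hP Q hQ (by simpa using h)
  have hAcard : A.card ≤ (G.image Prod.fst).card ^ k :=
    digit_proj_card_le Prod.fst (fun p q => rfl) k
  have hBcard : B.card ≤ (G.image Prod.snd).card ^ k := by
    have e : B = (S.image Prod.snd).image (fun x : ℤ => x + σ) := by
      rw [hB, Finset.image_image]; rfl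
    rw [e]
    exact Finset.card_image_le.trans (digit_proj_card_le Prod.snd (fun p q => rfl) k)
  have hCcard : C.card ≤ (G.image (fun p : ℤ × ℤ => 2 * p.2 - p.1)).card ^ k := by
    have e : C = (S.image (fun p : ℤ × ℤ => 2 * p.2 - p.1)).image (fun x : ℤ => x + 2 * σ) := by
      rw [hC, Finset.image_image]; rfl
    rw [e]
    exact Finset.card_image_le.trans
      (digit_proj_card_le (fun p : ℤ × ℤ => 2 * p.2 - p.1) (fun p q => by ring) k)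
  have key := key_ineq p₁ p₂ p₃ r hr0 hrT Cst hbdd hsep hM Dset hAP
  -- algebra
  have hs : (0 : ℝ) ≤ 1 / r.toReal := by positivity
  have ha₁ : (0 : ℝ) ≤ 1 / p₁.toReal := by positivity
  have ha₂ : (0 : ℝ) ≤ 1 / p₂.toReal := by positivity
  have ha₃ : (0 : ℝ) ≤ 1 / p₃.toReal := by positivity
  have e1 : ((Dset.card : ℝ) / 16) ^ (1 / r.toReal)
      = ((G.card : ℝ) ^ (1 / r.toReal)) ^ k / 16 ^ (1 / r.toReal) := by
    rw [hDcard, Nat.cast_pow, Real.div_rpow (by positivity) (by norm_num),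
      pow_rpow_comm (Nat.cast_nonneg _)]
  have up : ∀ (n N : ℕ) (a : ℝ), 0 ≤ a → n ≤ N ^ k → (n : ℝ) ^ a ≤ ((N : ℝ) ^ a) ^ k := by
    intro n N a ha hn
    rw [← pow_rpow_comm (Nat.cast_nonneg _)]
    apply Real.rpow_le_rpow (Nat.cast_nonneg _) _ ha
    exact_mod_cast hn
  have hC' := up _ _ _ ha₁ hCcard
  have hB' := up _ _ _ ha₂ hBcard
  have hA' := up _ _ _ ha₃ hAcard
  set X := (G.card : ℝ) ^ (1 / r.toReal) with hX
  set y₁ := ((G.image (fun p : ℤ × ℤ => 2 * p.2 - p.1)).card : ℝ) ^ (1 / p₁.toReal) with hy₁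
  set y₂ := ((G.image Prod.snd).card : ℝ) ^ (1 / p₂.toReal) with hy₂
  set y₃ := ((G.image Prod.fst).card : ℝ) ^ (1 / p₃.toReal) with hy₃
  have hy₁0 : 0 ≤ y₁ := Real.rpow_nonneg (Nat.cast_nonneg _) _
  have hy₂0 : 0 ≤ y₂ := Real.rpow_nonneg (Nat.cast_nonneg _) _
  have hy₃0 : 0 ≤ y₃ := Real.rpow_nonneg (Nat.cast_nonneg _) _
  have h16 : (0 : ℝ) < 16 ^ (1 / r.toReal) := Real.rpow_pos_of_pos (by norm_num) _
  have hM1 : 0 < M + 1 := by linarith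
  have hM2 : M + 1 ≤ (8 * c + 2) * (b : ℝ) ^ k := by
    rw [hMdef]
    have : (0 : ℝ) ≤ (c : ℝ) := Nat.cast_nonneg c
    nlinarith
  have hCst : (0 : ℝ) ≤ (Cst : ℝ) := Cst.coe_nonneg
  have hrhs : (Cst : ℝ) * (C.card : ℝ) ^ (1 / p₁.toReal) * (B.card : ℝ) ^ (1 / p₂.toReal)
      * (A.card : ℝ) ^ (1 / p₃.toReal) ≤ Cst * y₁ ^ k * y₂ ^ k * y₃ ^ k := by
    have q1 : (0 : ℝ) ≤ (C.card : ℝ) ^ (1 / p₁.toReal) := Real.rpow_nonneg (Nat.cast_nonneg _) _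
    have q2 : (0 : ℝ) ≤ (B.card : ℝ) ^ (1 / p₂.toReal) := Real.rpow_nonneg (Nat.cast_nonneg _) _
    have q3 : (0 : ℝ) ≤ (A.card : ℝ) ^ (1 / p₃.toReal) := Real.rpow_nonneg (Nat.cast_nonneg _) _
    apply mul_le_mul (mul_le_mul (mul_le_mul_of_nonneg_left hC' hCst) hB' q2 (by positivity)) hA' q3
      (by positivity)
  rw [e1] at key
  have key2 : X ^ k / 16 ^ (1 / r.toReal) * (1 / (16 * (M + 1))) ≤ Cst * y₁ ^ k * y₂ ^ k * y₃ ^ k :=
    key.trans hrhs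
  have key3 : X ^ k ≤ (Cst * y₁ ^ k * y₂ ^ k * y₃ ^ k) * (16 ^ (1 / r.toReal) * (16 * (M + 1))) := by
    have e : X ^ k / 16 ^ (1 / r.toReal) * (1 / (16 * (M + 1)))
        = X ^ k / (16 ^ (1 / r.toReal) * (16 * (M + 1))) := by
      field_simp
    rw [e, div_le_iff₀ (by positivity)] at key2
    exact key2
  calc X ^ k ≤ (Cst * y₁ ^ k * y₂ ^ k * y₃ ^ k) * (16 ^ (1 / r.toReal) * (16 * (M + 1))) := key3
    _ ≤ (Cst * y₁ ^ k * y₂ ^ k * y₃ ^ k)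
          * (16 ^ (1 / r.toReal) * (16 * ((8 * c + 2) * (b : ℝ) ^ k))) := by
        apply mul_le_mul_of_nonneg_left _ (by positivity)
        apply mul_le_mul_of_nonneg_left _ h16.le
        linarith
    _ = (16 ^ (1 / r.toReal) * (16 * (8 * c + 2)) * Cst) * ((b : ℝ) * y₁ * y₂ * y₃) ^ k := by
        rw [mul_pow, mul_pow, mul_pow]; ring

/-- **Unboundedness criterion.** Let `G` be a finite set of integer pairs `(u, v)`, standing for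
the four-term progressions `u, v, 2v-u, 3v-2u`, whose last terms `3v-2u` are pairwise distinct
modulo `b ≥ 2`.  If `b · N_C^{1/p₁} · N_B^{1/p₂} · N_A^{1/p₃} < |G|^{1/r}`, where `N_A, N_B, N_C`
count the distinct first, second and third terms, then the trilinear Hilbert transform is not
bounded at `(p₁,p₂,p₃,r)`. -/
theorem criterion (G : Finset (ℤ × ℤ)) (b : ℕ) (hb : 2 ≤ b)
    (hinj : ∀ p ∈ G, ∀ q ∈ G, (b : ℤ) ∣ (3 * p.2 - 2 * p.1) - (3 * q.2 - 2 * q.1) → p = q)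
    (p₁ p₂ p₃ r : ℝ≥0∞) (hr0 : r ≠ 0) (hrT : r ≠ ⊤)
    (hcrit : (b : ℝ) * ((G.image (fun p : ℤ × ℤ => 2 * p.2 - p.1)).card : ℝ) ^ (1 / p₁.toReal)
          * ((G.image Prod.snd).card : ℝ) ^ (1 / p₂.toReal)
          * ((G.image Prod.fst).card : ℝ) ^ (1 / p₃.toReal) < (G.card : ℝ) ^ (1 / r.toReal)) :
    ¬ BoundedAt p₁ p₂ p₃ r := by
  rintro ⟨Cst, hbdd⟩
  obtain ⟨c, hc⟩ := exists_bound G
  have hk := digit_ineq G b hb hinj p₁ p₂ p₃ r hr0 hrT Cst hbdd c hc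
  set X := (G.card : ℝ) ^ (1 / r.toReal) with hX
  set Y := (b : ℝ) * ((G.image (fun p : ℤ × ℤ => 2 * p.2 - p.1)).card : ℝ) ^ (1 / p₁.toReal)
          * ((G.image Prod.snd).card : ℝ) ^ (1 / p₂.toReal)
          * ((G.image Prod.fst).card : ℝ) ^ (1 / p₃.toReal) with hY
  set K : ℝ := 16 ^ (1 / r.toReal) * (16 * (8 * c + 2)) * Cst with hK
  have hY0 : 0 ≤ Y := by
    rw [hY]
    have q1 : (0 : ℝ) ≤ ((G.image (fun p : ℤ × ℤ => 2 * p.2 - p.1)).card : ℝ) ^ (1 / p₁.toReal) :=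
      Real.rpow_nonneg (Nat.cast_nonneg _) _
    have q2 : (0 : ℝ) ≤ ((G.image Prod.snd).card : ℝ) ^ (1 / p₂.toReal) :=
      Real.rpow_nonneg (Nat.cast_nonneg _) _
    have q3 : (0 : ℝ) ≤ ((G.image Prod.fst).card : ℝ) ^ (1 / p₃.toReal) :=
      Real.rpow_nonneg (Nat.cast_nonneg _) _
    positivity
  rcases hY0.eq_or_lt with h0 | hpos
  · have h1 := hk 1
    rw [← h0] at h1 hcrit
    simp only [pow_one, mul_zero] at h1
    linarith
  · have hXY : 1 < X / Y := by rwa [one_lt_div hpos]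
    obtain ⟨n, hn⟩ := pow_unbounded_of_one_lt K hXY
    have h1 := hk n
    rw [div_pow, lt_div_iff₀ (pow_pos hpos n)] at hn
    linarith

end Vale.Agent.H38.P141
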